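import Vale.Agent.P140S.Def

noncomputable section
namespace P140S
open MeasureTheory Set Real Filter Vale.Agent.P140
open scoped ENNReal Topology Classical

theorem pc_smul (t : ℝ) (v : E) : pc (t • v) = ((t * v 2 : ℝ) : Ci) := rfl
theorem meas_coe : Measurable fun x : ℝ => (x : Ci) := AddCircle.measurable_mk'
theorem meas_pc : Measurable pc := meas_coe.comp (by fun_prop)
theorem ps_zero (p : Ci × E) : ps 0 p = p.1 := by simp [ps, pc]
theorem ps_eq (s : ℝ) (p : Ci × E) : ps s p = p.1 + ((s * p.2 2 : ℝ) : Ci) := rfl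
theorem ps_back (t : ℝ) (y : Ci) (v : E) : ps t (y - pc (t • v), v) = y := sub_add_cancel _ _
theorem ps_back' (s t : ℝ) (y : Ci) (v : E) :
    ps s (y - pc (t • v), v) = y - (((t - s) * v 2 : ℝ) : Ci) := by
  rw [ps_eq, pc_smul, sub_mul, AddCircle.coe_sub]
  dsimp only
  abel
theorem ps_sub (t : ℝ) (p : Ci × E) : ps t p - pc (t • p.2) = p.1 := add_sub_cancel_right _ _
theorem ps_step (s t : ℝ) (p : Ci × E) : ps t p = ps s p + (((t - s) * p.2 2 : ℝ) : Ci) := by
  rw [ps_eq, ps_eq, sub_mul, AddCircle.coe_sub]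
  abel
theorem shp_back {α : Type} (G : ℝ → Ci → E → α) (t : ℝ) (y : Ci) (v : E) :
    shp G t (y - pc (t • v), v) = G t y v := by rw [shp, ps_back]
theorem meas_ps : Measurable fun y : ℝ × Ci × E => ps y.1 y.2 :=
  measurable_snd.fst.add (meas_pc.comp (measurable_fst.smul measurable_snd.snd))
theorem meas_shp {α : Type} [MeasurableSpace α] {G : ℝ → Ci → E → α} (hG : Measurable (unc G)) :
    Measurable fun y : ℝ × Ci × E => shp G y.1 y.2 :=
  hG.comp (measurable_fst.prodMk (meas_ps.prodMk measurable_snd.snd))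
theorem meas_slice {α : Type} [MeasurableSpace α] {G : ℝ → Ci → E → α} (hG : Measurable (unc G))
    (t : ℝ) (y : Ci) : Measurable (G t y) :=
  hG.comp (measurable_const.prodMk (measurable_const.prodMk measurable_id))
theorem meas_Lam {ν : ℝ → Ci → E → ℝ} (hν : Measurable (unc ν)) :
    Measurable fun y : ℝ × ℝ × Ci × E => Lam ν y.1 y.2.1 y.2.2 := by
  have h1 : Measurable fun z : (ℝ × ℝ × Ci × E) × ℝ =>
      if z.1.1 < z.2 ∧ z.2 ≤ z.1.2.1 then shp ν z.2 z.1.2.2 else 0 :=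
    Measurable.ite ((measurableSet_lt measurable_fst.fst measurable_snd).inter
      (measurableSet_le measurable_snd measurable_fst.snd.fst))
      ((meas_shp hν).comp (measurable_snd.prodMk measurable_fst.snd.snd)) measurable_const
  have h2 := (h1.stronglyMeasurable.integral_prod_right' (ν := (volume : Measure ℝ))).measurable
  have e : (fun y : ℝ × ℝ × Ci × E => Lam ν y.1 y.2.1 y.2.2) = fun y =>
      ∫ r, if y.1 < r ∧ r ≤ y.2.1 then shp ν r y.2.2 else 0 := by
    funext y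
    rw [Lam, ← integral_indicator measurableSet_Ioc]
    simp only [indicator_apply, mem_Ioc]
  rw [e]
  exact h2
theorem mp_ps (t : ℝ) : MeasurePreserving (fun p : Ci × E => (ps t p, p.2)) volume volume := by
  have h1 := (MeasurePreserving.id (volume : Measure E)).skew_product
    (g := fun (v : E) (y : Ci) => y + pc (t • v)) (μc := volume) (μd := volume)
    (measurable_snd.add (meas_pc.comp (measurable_fst.const_smul t)))
    (Eventually.of_forall fun v => (measurePreserving_add_right volume _).map_eq)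
  exact Measure.measurePreserving_swap.comp (h1.comp Measure.measurePreserving_swap)
theorem lint_shp1 {G : Ci → E → ℝ≥0∞} (hG : Measurable (Function.uncurry G)) (t : ℝ) :
    ∫⁻ p : Ci × E, G (ps t p) p.2 = ∫⁻ p : Ci × E, G p.1 p.2 := (mp_ps t).lintegral_comp hG
theorem lint_shp {G : ℝ → Ci → E → ℝ≥0∞} (hG : Measurable (unc G)) (A : Set ℝ) :
    ∫⁻ s in A, ∫⁻ p : Ci × E, G s p.1 p.2 = ∫⁻ p : Ci × E, ∫⁻ s in A, shp G s p := by
  rw [← lintegral_lintegral_swap (f := fun s p => shp G s p) (meas_shp hG).aemeasurable]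
  exact lintegral_congr fun s =>
    (lint_shp1 (G := G s) (hG.comp (measurable_const.prodMk measurable_id)) s).symm
theorem lint_prod {G : Ci → E → ℝ≥0∞} (hG : Measurable (Function.uncurry G)) :
    ∫⁻ p : Ci × E, G p.1 p.2 = ∫⁻ y, ∫⁻ v, G y v := lintegral_prod _ hG.aemeasurable
theorem ae_shp {Pr : ℝ → Ci → Prop} (hm : MeasurableSet {y : ℝ × Ci | Pr y.1 y.2})
    (h : ∀ s, ∀ᵐ y, Pr s y) (A : Set ℝ) :
    ∀ᵐ p : Ci × E, ∀ᵐ s ∂volume.restrict A, Pr s (ps s p) := by
  refine (Measure.ae_ae_comm (p := fun s (p : Ci × E) => Pr s (ps s p))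
    ((measurable_fst.prodMk meas_ps) hm)).1 (Eventually.of_forall fun s => ?_)
  exact (mp_ps s).quasiMeasurePreserving.ae (p := fun p : Ci × E => Pr s p.1)
    (Measure.quasiMeasurePreserving_fst.ae (h s))
theorem mp_two : MeasurePreserving (fun p : Om => ((p.1 2, p.2) : Ci × E)) volume volume := by
  have : IsProbabilityMeasure (volume : Measure Ci) := ⟨UnitAddCircle.measure_univ⟩
  exact (measurePreserving_eval (fun _ : Fin 3 => (volume : Measure Ci)) 2).prod
    (MeasurePreserving.id volume)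
theorem vol_Ci : (volume : Measure Ci) univ = 1 := UnitAddCircle.measure_univ
theorem norm_coe_le (x : ℝ) : ‖(x : Ci)‖ ≤ |x| := by
  rw [UnitAddCircle.norm_eq]
  simpa using round_le x 0
theorem norm_coe_eq {x : ℝ} (h : |x| ≤ 1 / 2) : ‖(x : Ci)‖ = |x| :=
  (AddCircle.norm_coe_eq_abs_iff (1 : ℝ) one_ne_zero).2 (by simpa using h)
theorem norm_le_half (y : Ci) : ‖y‖ ≤ 1 / 2 := by
  simpa using AddCircle.norm_le_half_period (1 : ℝ) (x := y) one_ne_zero
theorem exists_rep (y : Ci) : ∃ x : ℝ, |x| = ‖y‖ ∧ (x : Ci) = y := by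
  induction y using QuotientAddGroup.induction_on with
  | H x =>
    refine ⟨x - round x, UnitAddCircle.norm_eq.symm, ?_⟩
    have : ((round x : ℝ) : Ci) = 0 := (AddCircle.coe_eq_zero_iff (1 : ℝ)).2 ⟨round x, by simp⟩
    rw [AddCircle.coe_sub, this, sub_zero]
theorem cir_ball (ζ : ℝ) : {y : Ci | ‖y‖ ≤ ζ} = Metric.closedBall 0 ζ := by
  ext y
  simp
theorem ae_ne_zero : ∀ᵐ y : Ci, y ≠ 0 := by
  have := AddCircle.volume_closedBall 1 (x := 0) 0
  rw [Metric.closedBall_zero] at this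
  exact compl_mem_ae_iff.2 (show volume ({0} : Set Ci) = 0 by simpa using this)
theorem lint_Ci (f : Ci → ℝ≥0∞) (a : ℝ) : ∫⁻ y, f y = ∫⁻ x in Ioc a (a + 1), f (x : Ci) :=
  (UnitAddCircle.lintegral_preimage a f).symm
theorem lint_norm {h : ℝ → ℝ≥0∞} (hm : Measurable h) :
    ∫⁻ y : Ci, h ‖y‖ = 2 * ∫⁻ x in Ioc (0 : ℝ) (1 / 2), h x := by
  have e1 : ∫⁻ x in Ioc (0 : ℝ) (1 / 2), h ‖(x : Ci)‖ = ∫⁻ x in Ioc (0 : ℝ) (1 / 2), h x :=
    setLIntegral_congr_fun measurableSet_Ioc fun x hx => by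
      rw [norm_coe_eq ((abs_of_pos hx.1).trans_le hx.2), abs_of_pos hx.1]
  have e2 : ∫⁻ x in Ioc (-(1 / 2) : ℝ) 0, h ‖(x : Ci)‖
      = ∫⁻ x in Ioc (0 : ℝ) (1 / 2), h ‖(x : Ci)‖ := by
    rw [← (Measure.measurePreserving_neg volume).setLIntegral_comp_preimage measurableSet_Ioc
      (f := fun x : ℝ => h ‖(x : Ci)‖) (hm.comp meas_coe.norm)]
    simp only [AddCircle.coe_neg, norm_neg]
    rw [show (Neg.neg ⁻¹' Ioc (-(1 / 2) : ℝ) 0) = Ico 0 (1 / 2) by ext x; simp]
    exact setLIntegral_congr Ico_ae_eq_Ioc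
  rw [lint_Ci _ (-(1 / 2)), show (-(1 / 2) + 1 : ℝ) = 1 / 2 by norm_num,
    ← Ioc_union_Ioc_eq_Ioc (show (-(1 / 2) : ℝ) ≤ 0 by norm_num) (by norm_num),
    lintegral_union measurableSet_Ioc (Ioc_disjoint_Ioc_of_le le_rfl), e2, e1, two_mul]
theorem mset_ball (ζ : ℝ) : MeasurableSet {y : Ci | ‖y‖ ≤ ζ} :=
  measurableSet_le measurable_norm measurable_const
theorem vol_ball_le (ζ : ℝ) : volume {y : Ci | ‖y‖ ≤ ζ} ≤ ENNReal.ofReal (2 * ζ) := by
  rw [cir_ball, AddCircle.volume_closedBall]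
  exact ENNReal.ofReal_le_ofReal (min_le_right _ _)
theorem vol_ball {ζ : ℝ} (h : ζ ≤ 1 / 2) : volume {y : Ci | ‖y‖ ≤ ζ} = ENNReal.ofReal (2 * ζ) := by
  rw [cir_ball, AddCircle.volume_closedBall, min_eq_right (by linarith)]
theorem vol_shell {a b : ℝ} (ha : 0 ≤ a) (hb : b ≤ 1 / 2) :
    volume {y : Ci | a ≤ ‖y‖ ∧ ‖y‖ ≤ b} = ENNReal.ofReal (2 * (b - a)) := by
  have h1 := lint_norm (h := (Icc a b).indicator 1) (measurable_one.indicator measurableSet_Icc)
  have h2 : volume (Icc a b ∩ Ioc (0 : ℝ) (1 / 2)) = ENNReal.ofReal (b - a) := by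
    refine le_antisymm ((measure_mono inter_subset_left).trans_eq Real.volume_Icc)
      (Real.volume_Ioc.symm.trans_le (measure_mono fun x hx => ?_))
    exact ⟨⟨hx.1.le, hx.2⟩, ha.trans_lt hx.1, hx.2.trans hb⟩
  rw [lintegral_indicator_one measurableSet_Icc, Measure.restrict_apply measurableSet_Icc,
    h2] at h1
  rw [ENNReal.ofReal_mul zero_le_two, ENNReal.ofReal_ofNat, ← h1]
  exact (lintegral_indicator_one (measurable_norm measurableSet_Icc)).symm
theorem ae_ray {Pr : Ci → Prop} (h : ∀ᵐ y, Pr y) (z : Ci) {c : ℝ} (hc : c ≠ 0) :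
    ∀ᵐ x : ℝ, Pr (z - ((c * x : ℝ) : Ci)) := by
  have h1 : ∀ᵐ y, Pr (z - y) :=
    (Measure.measurePreserving_sub_left volume z).quasiMeasurePreserving.ae h
  have h2 : ∀ᵐ x : ℝ, Pr (z - (x : Ci)) := by
    rw [← Measure.restrict_univ (μ := (volume : Measure ℝ)), ← iUnion_Ioc_intCast ℝ,
      ae_restrict_iUnion_iff]
    exact fun n => (UnitAddCircle.measurePreserving_mk n).quasiMeasurePreserving.ae h1
  have h3 : Measure.QuasiMeasurePreserving (fun x : ℝ => c * x) volume volume :=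
    ⟨measurable_const_mul c, by
      rw [Real.map_volume_mul_left hc]
      exact Measure.smul_absolutelyContinuous⟩
  exact h3.ae h2
theorem lint_line {ρ : Ci → ℝ≥0∞} (hρ : Measurable ρ) (z : Ci) {c a b : ℝ} (hc : c ≠ 0)
    (h : |c| * (b - a) ≤ 1) :
    ∫⁻ s in Ioc a b, ρ (z + ((s * c : ℝ) : Ci)) ≤ ENNReal.ofReal (1 / |c|) * ∫⁻ y, ρ y := by
  set m := min (a * c) (b * c) with hm
  have hg : Measurable ((Icc m (m + 1)).indicator fun x : ℝ => ρ (z + (x : Ci))) :=
    (hρ.comp (meas_coe.const_add z)).indicator measurableSet_Icc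
  calc _ ≤ ∫⁻ s, (Icc m (m + 1)).indicator (fun x : ℝ => ρ (z + (x : Ci))) (s * c) := by
        rw [← lintegral_indicator measurableSet_Ioc]
        refine lintegral_mono fun s => indicator_apply_le' (fun hs => ?_) fun _ => zero_le
        rw [indicator_of_mem]
        rcases lt_or_gt_of_ne hc with h0 | h0
        · rw [abs_of_neg h0] at h
          have : m = b * c := min_eq_right (by nlinarith [hs.1, hs.2])
          constructor <;> nlinarith [hs.1, hs.2]
        · rw [abs_of_pos h0] at h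
          have : m = a * c := min_eq_left (by nlinarith [hs.1, hs.2])
          constructor <;> nlinarith [hs.1, hs.2]
    _ = _ := by
        rw [← lintegral_map hg (measurable_mul_const c), Real.map_volume_mul_right hc,
          lintegral_smul_measure, lintegral_indicator measurableSet_Icc,
          ← setLIntegral_congr Ioc_ae_eq_Icc, ← lint_Ci (fun y => ρ (z + y)) m,
          lintegral_add_left_eq_self, abs_inv, one_div, smul_eq_mul]
theorem mset_Box (c : E) (r : ℝ) : MeasurableSet (Box c r) := by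
  simp only [Box, ofPred_forall]
  exact MeasurableSet.iInter fun i => measurableSet_le (by fun_prop) measurable_const
theorem cir_mp3 : MeasurePreserving (fun y : E => (y 0, y 1, y 2)) volume
    ((volume : Measure ℝ).prod ((volume : Measure ℝ).prod volume)) :=
  ((MeasurePreserving.id volume).prod (volume_preserving_finTwoArrow ℝ)).comp
    ((volume_preserving_piFinSuccAbove (fun _ : Fin 3 => ℝ) 0).comp
      (PiLp.volume_preserving_ofLp (Fin 3)))
theorem cir_box {h : ℝ → ℝ≥0∞} (hm : Measurable h) (c : E) {r : ℝ} (hr : 0 ≤ r) :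
    ∫⁻ v in Box c r, h (v 2)
      = ENNReal.ofReal ((2 * r) ^ 2) * ∫⁻ x in Icc (c 2 - r) (c 2 + r), h x := by
  have hB : Box c r = (fun y : E => (y 0, y 1, y 2)) ⁻¹'
      (Icc (c 0 - r) (c 0 + r) ×ˢ Icc (c 1 - r) (c 1 + r) ×ˢ Icc (c 2 - r) (c 2 + r)) := by
    ext v
    simp only [Box, mem_ofPred_eq, Fin.forall_fin_succ, mem_preimage, mem_prod, mem_Icc, abs_le]
    simp only [IsEmpty.forall_iff, and_true, Fin.succ_zero_eq_one, Fin.succ_one_eq_two]
    constructor
    · rintro ⟨⟨h1, h2⟩, ⟨h3, h4⟩, h5, h6⟩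
      refine ⟨⟨?_, ?_⟩, ⟨?_, ?_⟩, ?_, ?_⟩ <;> linarith
    · rintro ⟨⟨h1, h2⟩, ⟨h3, h4⟩, h5, h6⟩
      refine ⟨⟨?_, ?_⟩, ⟨?_, ?_⟩, ?_, ?_⟩ <;> linarith
  have e : ∀ a : ℝ, a + r - (a - r) = 2 * r := fun a => by ring
  have m1 : Measurable fun z : ℝ × ℝ × ℝ => h z.2.2 := hm.comp measurable_snd.snd
  have m2 : Measurable fun z : ℝ × ℝ => h z.2 := hm.comp measurable_snd
  rw [hB, cir_mp3.setLIntegral_comp_preimage (f := fun z : ℝ × ℝ × ℝ => h z.2.2)
    (measurableSet_Icc.prod (measurableSet_Icc.prod measurableSet_Icc)) m1,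
    ← Measure.prod_restrict, ← Measure.prod_restrict, lintegral_prod _ m1.aemeasurable]
  dsimp only
  rw [lintegral_prod _ m2.aemeasurable]
  simp only [lintegral_const, Measure.restrict_apply_univ, Real.volume_Icc, e]
  rw [sq, ENNReal.ofReal_mul (show 0 ≤ 2 * r by linarith) (q := 2 * r), mul_assoc, mul_comm]
theorem vol_Box (c : E) {r : ℝ} (hr : 0 ≤ r) : volume (Box c r) = ENNReal.ofReal ((2 * r) ^ 3) := by
  have := cir_box (h := fun _ => 1) measurable_const c hr
  rw [setLIntegral_one, setLIntegral_one, Real.volume_Icc,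
    ← ENNReal.ofReal_mul (by positivity)] at this
  rw [this]
  congr 1
  ring
theorem lint_Box {h : ℝ → ℝ≥0∞} (hm : Measurable h) (c : E) {r : ℝ} (hr : 0 ≤ r) :
    ∫⁻ v in Box c r, h (v 2)
      = ENNReal.ofReal ((2 * r) ^ 2) * ∫⁻ x in Icc (c 2 - r) (c 2 + r), h x := cir_box hm c hr

end P140S
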