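import Vale.Agent.P140.StmB

/-! The slab avalanche: definitions. -/

noncomputable section
namespace P140S
open MeasureTheory Set Real Filter Vale.Agent.P140
open scoped ENNReal Topology Classical

/-- The circle of the third coordinate. -/
abbrev Ci := UnitAddCircle
/-- Third component modulo one. -/
def pc (v : E) : Ci := ((v 2 : ℝ) : Ci)
/-- Range of the third component of the outgoing velocities. -/
def J (v w : E) : Set ℝ := {x | |x - (v 2 + w 2) / 2| ≤ ‖v - w‖ / 2}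
/-- A real density seen in `ℝ≥0∞`. -/
def up (g : E → ℝ) : E → ℝ≥0∞ := fun v => ENNReal.ofReal (g v)
/-- Normalisation factor. -/
def th (N : ℝ) (g : E → ℝ) : ℝ := (1 + N⁻¹ * ∫ v, g v)⁻¹
/-- Angular integral of the truncated kernel. -/
def kap (N : ℝ) (v w : E) : ℝ≥0∞ := ∫⁻ ω, ENNReal.ofReal (kT N |cf v w ω| ‖v - w‖) ∂sph
/-- Collision frequency with the population `h`, normalised with `g`. -/
def nl (N : ℝ) (g h : E → ℝ) (v : E) : ℝ≥0∞ := ENNReal.ofReal (th N g) * freqK (kT N) (up h) v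
/-- Gain from the populations `a`, `b`, normalised with `g`. -/
def gk (N : ℝ) (g a b : E → ℝ) (v : E) : ℝ≥0∞ :=
  ENNReal.ofReal (th N g) * gainK (kT N) (up a) (up b) v

/-- Uncurrying. -/
def unc {α : Type} (G : ℝ → Ci → E → α) (y : ℝ × Ci × E) : α := G y.1 y.2.1 y.2.2
/-- Position at time `s` of the characteristic that starts at `p`. -/
def ps (s : ℝ) (p : Ci × E) : Ci := p.1 + pc (s • p.2)
/-- Value along the characteristic that starts at `p`. -/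
def shp {α : Type} (G : ℝ → Ci → E → α) (s : ℝ) (p : Ci × E) : α := G s (ps s p) p.2
/-- Integrated collision frequency along a characteristic. -/
def Lam (ν : ℝ → Ci → E → ℝ) (s t : ℝ) (p : Ci × E) : ℝ := ∫ r in Ioc s t, shp ν r p
/-- Real collision frequency. -/
def nuF (N : ℝ) (F : ℝ → Ci → E → ℝ) (t : ℝ) (y : Ci) (v : E) : ℝ :=
  (nl N (F t y) (F t y) v).toReal
/-- Gain term. -/
def gnF (N : ℝ) (F : ℝ → Ci → E → ℝ) (t : ℝ) (y : Ci) (v : E) : ℝ≥0∞ :=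
  gk N (F t y) (F t y) (F t y) v

/-- Solution of the truncated equation on `[0, 1]`, depending on the third coordinate only. -/
structure Approx (N : ℝ) (f : Ci → E → ℝ) (F : ℝ → Ci → E → ℝ) : Prop where
  one_le : 1 ≤ N
  meas : Measurable (unc F)
  nonneg : ∀ t y v, 0 ≤ F t y v
  bnd : ∃ K : ℝ, 0 ≤ K ∧ ∀ t ∈ Icc (0 : ℝ) 1, ∀ y v, F t y v ≤ K * exp (-(3 / 8) * ‖v‖ ^ 2)
  mild : ∀ t ∈ Icc (0 : ℝ) 1, ∀ p : Ci × E, ENNReal.ofReal (shp F t p) =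
    ENNReal.ofReal (f p.1 p.2 * exp (-Lam (nuF N F) 0 t p)) +
      ∫⁻ s in Ioc 0 t, ENNReal.ofReal (exp (-Lam (nuF N F) s t p)) * shp (gnF N F) s p

def ell (ζ : ℝ) : ℝ := 3 - log ζ
def mu (ζ : ℝ) : ℝ := (ell ζ ^ 3)⁻¹
def vpi (ζ : ℝ) : ℝ := mu ζ / ζ
def d0 : ℝ := 1 / 10 ^ 6
def eps : ℝ := 1 / 10 ^ 12

/-- Parameters: column masses `τ`, speeds `V`, positions `z`. -/
structure Par where
  τ : ℕ → ℝ
  V : ℕ → ℝ
  z : ℕ → ℝ
  τ_pos : ∀ k, 0 < τ k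
  τ_succ : ∀ k, τ (k + 1) = 3 / 4 * τ k
  z_pos : ∀ k, 0 < z k
  z_le : ∀ k, z k ≤ τ k
  z_succ : ∀ k, z (k + 1) ≤ z k / 10
  V_pos : ∀ k, 0 < V k
  V_le : ∀ k, V k ≤ 1 / 10
  V_succ : ∀ k, V (k + 1) ≤ V k / 8
  thick : ∀ k, 40 * V (k + 1) ≤ τ k * V k
  time : ∀ k, 400 * z k ≤ V (k + 1) * (1 / 2) ^ (k + 2)
  tail : ∀ k, 4 * τ k ≤ eps * mu (z k)
  sum : ∀ n, ∑ k ∈ Finset.range n, τ k * ell (z k) ≤ eps

/-- A cube in velocity space. -/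
def Box (c : E) (r : ℝ) : Set E := {v | ∀ i, |v i - c i| ≤ r}
/-- Coordinate vectors. -/
def ev (i : Fin 3) (a : ℝ) : E := EuclideanSpace.single i a
/-- The weight. -/
def om (t : ℝ) (v : E) : ℝ := exp ((2 - t) * ‖v‖ ^ 2 / 8)
/-- Final time of level `j`. -/
def Tm (j : ℕ) : ℝ := (1 / 2) ^ (j + 1)

namespace Par
variable (P : Par)
/-- Velocity support of the cold slab `k`. -/
def bx (k : ℕ) : Set E := Box (ev 0 (P.V k)) (P.z k ^ 2)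
/-- The cold slab `k`. -/
def cb (k : ℕ) (y : Ci) (v : E) : ℝ :=
  if (P.z k ≤ ‖y‖ ∧ ‖y‖ ≤ 2 * P.z k) ∧ v ∈ P.bx k then P.τ k / (8 * P.z k ^ 7) else 0
/-- The seed of level `m` and mass `σ`. -/
def sd (m : ℕ) (σ : ℝ) (y : Ci) (v : E) : ℝ :=
  if ‖y‖ ≤ P.z m ∧ v ∈ Box (ev 2 (P.V m)) (P.V m / 2) then σ / (2 * P.z m * P.V m ^ 3) else 0
/-- Hot part of the approximate datum. -/
def g0 (n : ℕ) (σ κ : ℝ) (y : Ci) (v : E) : ℝ := P.sd (n + 1) σ y v + κ * Mx v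
/-- Approximate datum. -/
def f0 (n : ℕ) (σ κ : ℝ) (y : Ci) (v : E) : ℝ :=
  ∑ k ∈ Finset.range (n + 1), P.cb k y v + P.g0 n σ κ y v
/-- The datum. -/
def F0 (p : Om) : ℝ := ∑' k, P.cb k (p.1 2) p.2
/-- Velocities of class `j`. -/
def Cls (j : ℕ) : Set E := {v | ‖v‖ ≤ 2 * P.V j ∧ P.V j / 100 ≤ |v 2|}
/-- The observed velocities. -/
def Obs : Set E := {v | P.V 0 / 100 ≤ |v 2|}
/-- Majorant of the weighted cold density. -/
def bet (n : ℕ) (y : Ci) : ℝ≥0∞ :=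
  ∑ k ∈ Finset.range (n + 1), if ‖y‖ ≤ 3 * P.z k then ENNReal.ofReal (2 * P.τ k / P.z k) else 0
/-- Free transport of the hot datum, with weight `Θ`. -/
def free (n : ℕ) (σ κ : ℝ) (Θ : E → ℝ≥0∞) (t : ℝ) (z : Ci) : ℝ≥0∞ :=
  ∫⁻ v, Θ v * ENNReal.ofReal (om t v * P.g0 n σ κ (z - pc (t • v)) v)
end Par

/-- Nonnegative densities. -/
abbrev Fam := ℝ → Ci → E → ℝ≥0∞
/-- The Gaussian cutoff. -/
def ga (τ x : ℝ) : ℝ≥0∞ := ENNReal.ofReal (exp (-(τ * x ^ 2 / 8)))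
/-- Average of a density along rays with a Gaussian cutoff. -/
def Kx (τ : ℝ) (ρ : Ci → ℝ≥0∞) (z : Ci) : ℝ≥0∞ := ∫⁻ x : ℝ, ga τ x * ρ (z - ((τ * x : ℝ) : Ci))
/-- Weight one. -/
def T0 (_ _ : E) : ℝ≥0∞ := 1
/-- Weight `|u| + |w|`. -/
def T1 (u w : E) : ℝ≥0∞ := ENNReal.ofReal (‖u‖ + ‖w‖)
/-- Pairs that can produce a particle with third velocity component `x`. -/
def W (f g : Fam) (Θ : E → E → ℝ≥0∞) (s : ℝ) (y : Ci) (x : ℝ) : ℝ≥0∞ :=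
  ∫⁻ u, ∫⁻ w, f s y u * g s y w * Θ u w * (J u w).indicator 1 x
/-- Duhamel operator for densities, with source times in `(a, t)`. -/
def TT (w : ℝ → Ci → ℝ → ℝ≥0∞) (a t : ℝ) (z : Ci) : ℝ≥0∞ :=
  ∫⁻ s in Ioo a t, ∫⁻ x : ℝ, ENNReal.ofReal (2 * π) * ga (t - s) x *
    w s (z - (((t - s) * x : ℝ) : Ci)) x
/-- Weighted number of collisions. -/
def cnt (f g : Fam) : ℝ≥0∞ :=
  ∫⁻ s in Ioo (0 : ℝ) 1, ∫⁻ y, ∫⁻ u, ∫⁻ w, f s y u * g s y w * ENNReal.ofReal ‖u - w‖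

/-- A cold family of level `k`. -/
structure Cold (P : Par) (k : ℕ) (f : Fam) : Prop where
  meas : Measurable (unc f)
  supp : ∀ s y u, f s y u ≠ 0 → (P.z k / 2 ≤ ‖y‖ ∧ ‖y‖ ≤ 3 * P.z k) ∧ u ∈ P.bx k
  int : ∀ s y, ∫⁻ u, f s y u ≤ ENNReal.ofReal (2 * P.τ k / P.z k)
/-- A hot family with the three bootstrap bounds. -/
structure Hot (g : Fam) (q : ℝ → ℝ≥0∞) : Prop where
  meas : Measurable (unc g)
  qmeas : Measurable q
  hq : ∫⁻ s in Ioo (0 : ℝ) 1, q s ≤ ENNReal.ofReal d0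
  hX : ∀ s, ∀ᵐ y, ∫⁻ w, g s y w ≤ ENNReal.ofReal (d0 * vpi ‖y‖)
  hY : ∀ s ζ, 0 < ζ → ζ ≤ 1 / 2 →
    ∫⁻ y in {y : Ci | ‖y‖ ≤ ζ}, ∫⁻ w, g s y w ≤ ENNReal.ofReal (d0 * mu ζ)
  hZ : ∀ s, ∀ᵐ y, ∫⁻ w, ENNReal.ofReal ‖w‖ * g s y w ≤ q s
/-- Cold families, a hot family, and the collision counts. -/
structure Sys (P : Par) (n : ℕ) (f : ℕ → Fam) (g : Fam) (q : ℝ → ℝ≥0∞) : Prop where
  cold : ∀ k, Cold P k (f k)
  hot : Hot g q
  count : ∀ k ≤ n, cnt (f k) g ≤ ENNReal.ofReal (3 * P.τ k)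
/-- The cold-hot source. -/
def Wb (n : ℕ) (f : ℕ → Fam) (g : Fam) (Θ : E → E → ℝ≥0∞) (s : ℝ) (y : Ci) (x : ℝ) : ℝ≥0∞ :=
  ∑ k ∈ Finset.range (n + 1), W (f k) g Θ s y x
/-- The cold-cold source. -/
def Wc (n : ℕ) (f f' : ℕ → Fam) (Θ : E → E → ℝ≥0∞) (s : ℝ) (y : Ci) (x : ℝ) : ℝ≥0∞ :=
  ∑ k ∈ Finset.range (n + 1), ∑ l ∈ Finset.range (n + 1), W (f k) (f' l) Θ s y x

/-- One approximate solution. -/
structure Run (P : Par) where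
  n : ℕ
  σ : ℝ
  κ : ℝ
  N : ℝ
  F : ℝ → Ci → E → ℝ
  app : Approx N (P.f0 n σ κ) F
  σ_nn : 0 ≤ σ
  σ_le : σ ≤ P.τ (n + 1)
  κ_pos : 0 < κ
  κ_le : κ ≤ P.τ 0 / 100
  big : 100 / P.z (n + 1) ^ 2 ≤ N

namespace Run
variable {P : Par} (R : Run P)
/-- Collision frequency. -/
def nu : ℝ → Ci → E → ℝ := nuF R.N R.F
/-- Survival factor between the times `s` and `t`. -/
def ex (s t : ℝ) (p : Ci × E) : ℝ≥0∞ := ENNReal.ofReal (exp (-Lam R.nu s t p))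
/-- Normalisation factor. -/
def θ (s : ℝ) (y : Ci) : ℝ≥0∞ := ENNReal.ofReal (th R.N (R.F s y))
/-- Uncollided particles of slab `k`. -/
def bk (k : ℕ) (t : ℝ) (y : Ci) (v : E) : ℝ :=
  P.cb k (y - pc (t • v)) v * exp (-Lam R.nu 0 t (y - pc (t • v), v))
/-- All other particles. -/
def G (t : ℝ) (y : Ci) (v : E) : ℝ := R.F t y v - ∑ k ∈ Finset.range (R.n + 1), R.bk k t y v
/-- Weighted cold family, on `[0, 1]`. -/
def Bw (k : ℕ) : Fam := fun s y u =>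
  if 0 ≤ s ∧ s ≤ 1 then ENNReal.ofReal (om s u * R.bk k s y u) else 0
/-- The same with the normalisation factor. -/
def Bt (k : ℕ) : Fam := fun s y u => R.θ s y * R.Bw k s y u
/-- Weighted hot family, on `[0, t0]`. -/
def Gw (t0 : ℝ) : Fam := fun s y w =>
  if 0 ≤ s ∧ s ≤ t0 then ENNReal.ofReal (om s w * R.G s y w) else 0
/-- Weighted full density, on `[0, 1]`. -/
def Fw : Fam := fun s y w => if 0 ≤ s ∧ s ≤ 1 then ENNReal.ofReal (om s w * R.F s y w) else 0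
/-- The same with the normalisation factor. -/
def Ft : Fam := fun s y u => R.θ s y * R.Fw s y u
/-- Collision frequency with the slab `k`. -/
def nk (k : ℕ) (t : ℝ) (y : Ci) (w : E) : ℝ≥0∞ := nl R.N (R.F t y) (R.bk k t y) w
/-- Collision frequency with hot particles. -/
def nG (t : ℝ) (y : Ci) (w : E) : ℝ≥0∞ := nl R.N (R.F t y) (R.G t y) w
/-- Hot particles that are slow for level `j`. -/
def Gs (j : ℕ) (t : ℝ) (y : Ci) (w : E) : ℝ := if ‖w‖ ≤ P.V j / 2 then R.G t y w else 0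
/-- Number of collisions of slow particles with slab `j`. -/
def Nn (j : ℕ) : ℝ≥0∞ :=
  ∫⁻ t in Ioc 0 (Tm j), ∫⁻ p : Ci × E, ENNReal.ofReal (R.Gs j t p.1 p.2) * R.nk j t p.1 p.2
/-- Source of particles of class `j`. -/
def src (j : ℕ) (s : ℝ) (y : Ci) (v : E) : ℝ≥0∞ :=
  if v ∈ P.Cls j then gk R.N (R.F s y) (R.bk j s y) (R.Gs j s y) v
    + gk R.N (R.F s y) (R.Gs j s y) (R.bk j s y) v else 0
/-- Number of particles of class `j` produced. -/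
def Pn (j : ℕ) : ℝ≥0∞ := ∫⁻ s in Ioc 0 (Tm j), ∫⁻ p : Ci × E, R.src j s p.1 p.2
/-- At least half of each side of slab `j` survives. -/
def Rem (j : ℕ) : Prop := ∀ e : ℝ, e = 1 ∨ e = -1 → ENNReal.ofReal (P.τ j / 2) ≤
  ∫⁻ u, ∫⁻ ξ in Icc (P.z j) (2 * P.z j),
    ENNReal.ofReal (shp (R.bk j) (Tm j) (((e * ξ : ℝ) : Ci), u))
/-- The bounds hold along the characteristic `p`. -/
def Good (q : ℝ → ℝ≥0∞) (p : Ci × E) : Prop := ∀ᵐ s ∂volume.restrict (Ioc (0 : ℝ) 1),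
  ∫⁻ w, R.Gw 1 s (ps s p) w ≤ ENNReal.ofReal (d0 * vpi ‖ps s p‖) ∧
  ∫⁻ w, ENNReal.ofReal ‖w‖ * R.Gw 1 s (ps s p) w ≤ q s ∧
  1 / 2 ≤ th R.N (R.F s (ps s p))
/-- The observable. -/
def obs : ℝ := ∫ p : Ci × E, R.F 1 p.1 p.2 * P.Obs.indicator 1 p.2
end Run

end P140S
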