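import Vale.Agent.P140S.Cir

noncomputable section
namespace P140S
open MeasureTheory Set Real Filter Vale.Agent.P140
open scoped ENNReal Topology Classical

theorem d0_pos : 0 < d0 := by unfold d0; norm_num
theorem eps_pos : 0 < eps := by unfold eps; norm_num
theorem d0_sq : d0 * d0 = eps := by unfold d0 eps; norm_num
theorem ell_ge {ζ : ℝ} (h0 : 0 < ζ) (h1 : ζ ≤ 1) : 3 ≤ ell ζ := by
  have := log_nonpos h0.le h1
  unfold ell; linarith
theorem ell_pos {ζ : ℝ} (h0 : 0 < ζ) (h1 : ζ ≤ 1) : 0 < ell ζ :=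
  lt_of_lt_of_le (by norm_num) (ell_ge h0 h1)
theorem ell_anti {a b : ℝ} (h0 : 0 < a) (h : a ≤ b) : ell b ≤ ell a := by
  have := log_le_log h0 h
  unfold ell; linarith
theorem mu_pos {ζ : ℝ} (h0 : 0 < ζ) (h1 : ζ ≤ 1) : 0 < mu ζ :=
  inv_pos.2 (pow_pos (ell_pos h0 h1) 3)
theorem mu_le {ζ : ℝ} (h0 : 0 < ζ) (h1 : ζ ≤ 1) : mu ζ ≤ 1 / 27 := by
  have h := pow_le_pow_left₀ (by norm_num) (ell_ge h0 h1) 3
  rw [mu, one_div]
  exact inv_anti₀ (by norm_num) (by linarith)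
theorem mu_mono {a b : ℝ} (h0 : 0 < a) (h : a ≤ b) (h1 : b ≤ 1) : mu a ≤ mu b :=
  inv_anti₀ (pow_pos (ell_pos (h0.trans_le h) h1) 3)
    (pow_le_pow_left₀ (ell_pos (h0.trans_le h) h1).le (ell_anti h0 h) 3)
theorem mu_two {ζ : ℝ} (h0 : 0 < ζ) (h1 : ζ ≤ 1 / 2) : mu (2 * ζ) ≤ 2 * mu ζ := by
  have h2 := ell_ge (ζ := 2 * ζ) (by linarith) (by linarith)
  have h3 : ell ζ = ell (2 * ζ) + log 2 := by
    unfold ell; rw [log_mul two_ne_zero h0.ne']; ring
  have h4 := log_two_lt_d9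
  have h5 := ell_pos h0 (by linarith)
  have h6 : ell ζ ^ 3 ≤ (5 / 4 * ell (2 * ζ)) ^ 3 := pow_le_pow_left₀ h5.le (by linarith) 3
  have h7 : 0 < ell (2 * ζ) ^ 3 := by positivity
  rw [mu, mu, ← div_eq_mul_inv, inv_eq_one_div, div_le_div_iff₀ h7 (by positivity)]
  nlinarith
theorem vpi_pos {ζ : ℝ} (h0 : 0 < ζ) (h1 : ζ ≤ 1) : 0 < vpi ζ := div_pos (mu_pos h0 h1) h0
theorem mul_vpi {ζ : ℝ} (h0 : 0 < ζ) : ζ * vpi ζ = mu ζ := mul_div_cancel₀ _ h0.ne'
theorem vpi_anti {a b : ℝ} (h0 : 0 < a) (h : a ≤ b) (h1 : b ≤ 1) : vpi b ≤ vpi a := by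
  have hb : 0 < b := h0.trans_le h
  have h2 := ell_ge hb h1
  have h3 : 0 ≤ log (b / a) := log_nonneg ((one_le_div h0).2 h)
  have h4 : ell a = ell b + log (b / a) := by
    unfold ell; rw [log_div hb.ne' h0.ne']; ring
  have h5 := add_one_le_exp (log (b / a) / 3)
  have h6 : ell a ≤ ell b * exp (log (b / a) / 3) := by nlinarith
  have h7 : exp (log (b / a) / 3) ^ 3 = b / a := by
    rw [← exp_nat_mul, show ((3 : ℕ) : ℝ) * (log (b / a) / 3) = log (b / a) by push_cast; ring,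
      exp_log (div_pos hb h0)]
  have ha := ell_pos h0 (h.trans h1)
  have h8 := pow_le_pow_left₀ ha.le h6 3
  rw [mul_pow, h7, ← mul_div_assoc, le_div_iff₀ h0] at h8
  rw [vpi, vpi, mu, mu, div_eq_mul_inv, div_eq_mul_inv, ← mul_inv, ← mul_inv]
  exact inv_anti₀ (by positivity) h8
theorem vpi_ge {ζ : ℝ} (h0 : 0 < ζ) (h1 : ζ ≤ 1) : 1 / 27 ≤ vpi ζ := by
  refine le_trans (le_of_eq ?_) (vpi_anti h0 h1 le_rfl)
  norm_num [vpi, mu, ell]
theorem vpi_le {ζ : ℝ} (h0 : 0 < ζ) (h1 : ζ ≤ 1) : vpi ζ ≤ 1 / (27 * ζ) := by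
  rw [vpi, ← div_div]
  exact div_le_div_of_nonneg_right (mu_le h0 h1) h0.le
theorem vpi_half {ζ : ℝ} (h0 : 0 < ζ) (h1 : ζ ≤ 1) : vpi (ζ / 2) ≤ 2 * vpi ζ := by
  have h := mu_mono (half_pos h0) (half_le_self h0.le) h1
  have e : vpi (ζ / 2) = 2 * (mu (ζ / 2) / ζ) := by unfold vpi; field_simp
  rw [e, vpi]
  exact mul_le_mul_of_nonneg_left (div_le_div_of_nonneg_right h h0.le) zero_le_two
theorem meas_vpi : Measurable vpi := by
  unfold vpi mu ell
  fun_prop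

theorem ell_ftc {g g' : ℝ → ℝ} {a b : ℝ} (hab : a ≤ b) (hc : ContinuousOn g (Icc a b))
    (hd : ∀ x ∈ Ioo a b, HasDerivAt g (g' x) x) (h0 : ∀ x ∈ Ioo a b, 0 ≤ g' x) :
    ∫⁻ x in Ioo a b, ENNReal.ofReal (g' x) = ENNReal.ofReal (g b - g a) := by
  have hi := intervalIntegral.integrableOn_deriv_of_nonneg hc hd h0
  have e := intervalIntegral.integral_eq_sub_of_hasDerivAt_of_le hab hc hd
    ((intervalIntegrable_iff_integrableOn_Ioc_of_le hab).2 hi)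
  rw [← e, intervalIntegral.integral_of_le hab, integral_Ioc_eq_integral_Ioo,
    ofReal_integral_eq_lintegral_ofReal (hi.mono_set Ioo_subset_Ioc_self)
      (ae_restrict_of_forall_mem measurableSet_Ioo h0)]

theorem ell_deriv {x : ℝ} (h0 : 0 < x) (h1 : x ≤ 1) :
    HasDerivAt (fun x => 1 / (2 * ell x ^ 2)) (vpi x) x := by
  have h := ell_pos h0 h1
  have h2 : HasDerivAt ell (-x⁻¹) x := (hasDerivAt_log h0.ne').const_sub 3
  have h3 := ((h2.pow 2).const_mul 2).inv (by simp only [Pi.pow_apply]; positivity)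
  have e : vpi x = -(2 * (((2 : ℕ) : ℝ) * ell x ^ (2 - 1) * -x⁻¹)) / (2 * (ell ^ 2) x) ^ 2 := by
    simp only [vpi, mu, Pi.pow_apply]
    field_simp
    norm_num [mul_comm]
  rw [e]
  simp only [one_div]
  exact h3

theorem lint_vpi {a : ℝ} (h0 : 0 < a) (h1 : a ≤ 1) :
    ∫⁻ x in Ioc 0 a, ENNReal.ofReal (vpi x) ≤ ENNReal.ofReal (1 / (2 * ell a ^ 2)) := by
  have hu : Ioo 0 a = ⋃ n : ℕ, Ioo (a / ((n : ℝ) + 1)) a := by
    ext x
    simp only [mem_Ioo, mem_iUnion]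
    refine ⟨fun h => ?_, fun ⟨n, h⟩ => ⟨lt_trans (by positivity) h.1, h.2⟩⟩
    obtain ⟨n, hn⟩ := exists_nat_gt (a / x)
    refine ⟨n, ?_, h.2⟩
    rw [div_lt_iff₀ h.1] at hn
    rw [div_lt_iff₀ (by positivity)]
    nlinarith [h.1]
  have hm : Monotone fun n : ℕ => Ioo (a / ((n : ℝ) + 1)) a := fun m n h =>
    Ioo_subset_Ioo_left (div_le_div_of_nonneg_left h0.le (by positivity)
      (by have : (m : ℝ) ≤ n := Nat.cast_le.2 h; linarith))
  rw [← Measure.restrict_congr_set Ioo_ae_eq_Ioc, hu,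
    setLIntegral_iUnion_of_directed _ hm.directed_le]
  refine iSup_le fun n => ?_
  have c0 : 0 < a / ((n : ℝ) + 1) := by positivity
  have c1 : a / ((n : ℝ) + 1) ≤ a := div_le_self h0.le (by have := n.cast_nonneg (α := ℝ); linarith)
  rw [ell_ftc (g := fun x => 1 / (2 * ell x ^ 2)) c1
    (fun x hx => (ell_deriv (c0.trans_le hx.1) (hx.2.trans h1)).continuousAt.continuousWithinAt)
    (fun x hx => ell_deriv (c0.trans hx.1) (hx.2.le.trans h1))
    fun x hx => (vpi_pos (c0.trans hx.1) (hx.2.le.trans h1)).le]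
  exact ENNReal.ofReal_le_ofReal (sub_le_self _ (by positivity))

theorem lint_vpi_Ci {a : ℝ} (h0 : 0 < a) (h1 : a ≤ 1) :
    ∫⁻ y in {y : Ci | ‖y‖ ≤ a}, ENNReal.ofReal (vpi ‖y‖) ≤ ENNReal.ofReal (1 / ell a ^ 2) := by
  have hm : Measurable ((Iic a).indicator fun x => ENNReal.ofReal (vpi x)) :=
    meas_vpi.ennreal_ofReal.indicator measurableSet_Iic
  have e : ∫⁻ y in {y : Ci | ‖y‖ ≤ a}, ENNReal.ofReal (vpi ‖y‖) =
      ∫⁻ y : Ci, (Iic a).indicator (fun x => ENNReal.ofReal (vpi x)) ‖y‖ := by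
    rw [← lintegral_indicator (mset_ball a)]
    rfl
  have e2 : ENNReal.ofReal (1 / ell a ^ 2) = 2 * ENNReal.ofReal (1 / (2 * ell a ^ 2)) := by
    have := ell_pos h0 h1
    rw [← ENNReal.ofReal_ofNat, ← ENNReal.ofReal_mul zero_le_two]
    congr 1
    field_simp
  rw [e, lint_norm hm, e2, lintegral_indicator measurableSet_Iic,
    Measure.restrict_restrict measurableSet_Iic]
  have hsub : Iic a ∩ Ioc (0 : ℝ) (1 / 2) ⊆ Ioc 0 a := fun x hx => ⟨hx.2.1, hx.1⟩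
  exact mul_le_mul_right ((lintegral_mono_set hsub).trans (lint_vpi h0 h1)) 2

theorem lint_inv {a : ℝ} (h0 : 0 < a) (h1 : a ≤ 1) :
    ∫⁻ τ in Ico a 1, ENNReal.ofReal (1 / τ) ≤ ENNReal.ofReal (ell a) := by
  rw [← Measure.restrict_congr_set Ioo_ae_eq_Ico, ell_ftc (g := log) h1
    (fun x hx => (continuousAt_log (h0.trans_le hx.1).ne').continuousWithinAt)
    (fun x hx => by rw [one_div]; exact hasDerivAt_log (h0.trans hx.1).ne')
    fun x hx => (one_div_pos.2 (h0.trans hx.1)).le]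
  refine ENNReal.ofReal_le_ofReal ?_
  rw [log_one, ell]
  linarith

theorem lint_inv_sqrt {a : ℝ} (h0 : 0 ≤ a) :
    ∫⁻ τ in Ioo 0 a, ENNReal.ofReal (1 / √τ) ≤ ENNReal.ofReal (2 * √a) := by
  rw [ell_ftc (g := fun x => 2 * √x) h0 (by fun_prop) (fun x hx => ?_) fun x _ => by positivity]
  · simp
  · have h := (hasDerivAt_sqrt hx.1.ne').const_mul 2
    have e : 1 / √x = 2 * (1 / (2 * √x)) := by
      have := sqrt_pos.2 hx.1
      field_simp
    rwa [e]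

theorem ell_half {i j : ℕ} {c : ℝ} (k : ℕ) (h : j + k ≤ i) (hc : c ≤ 2 ^ k) :
    c * (1 / 2 : ℝ) ^ i ≤ (1 / 2) ^ j := by
  have h1 : (1 / 2 : ℝ) ^ i ≤ (1 / 2) ^ (j + k) :=
    pow_le_pow_of_le_one (by norm_num) (by norm_num) h
  have h2 : (2 : ℝ) ^ k * (1 / 2) ^ (j + k) = (1 / 2) ^ j := by
    rw [pow_add, mul_comm, mul_assoc, ← mul_pow]; norm_num
  rw [← h2]
  exact mul_le_mul hc h1 (by positivity) (by positivity)

theorem ell_pow (m : ℕ) : ell ((1 / 2) ^ (2 * (m + 1) ^ 2)) ≤ 5 * ((m : ℝ) + 1) ^ 2 := by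
  have h1 := log_two_lt_d9
  have h2 : (1 : ℝ) ≤ ((m : ℝ) + 1) ^ 2 := one_le_pow₀ (by have := m.cast_nonneg (α := ℝ); linarith)
  rw [ell, log_pow, one_div, log_inv]
  push_cast
  nlinarith

theorem exists_par : Nonempty Par := by
  have hs : Summable fun n : ℕ => (n : ℝ) ^ 6 * (3 / 4 : ℝ) ^ n :=
    summable_pow_mul_geometric_of_norm_lt_one 6 (by norm_num)
  have ht := tendsto_sum_nat_add fun n : ℕ => (n : ℝ) ^ 6 * (3 / 4 : ℝ) ^ n
  obtain ⟨i, hi, hi6⟩ := ((ht.eventually (gt_mem_nhds (show (0 : ℝ) < eps / 1000 by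
    have := eps_pos; positivity))).and (eventually_ge_atTop 7)).exists
  obtain ⟨j, rfl⟩ : ∃ j, i = j + 1 := ⟨i - 1, by omega⟩
  have hj : 6 ≤ j := by omega
  have hs' := (summable_nat_add_iff (j + 1)).2 hs
  have hsum : ∀ n, ∑ k ∈ Finset.range n, (((k + j : ℕ) : ℝ) + 1) ^ 6 * (3 / 4 : ℝ) ^ (k + j) ≤
      eps / 500 := fun n => by
    have h1 := (hs'.sum_le_tsum (Finset.range n) fun k _ => by positivity).trans hi.le
    have h2 : ∑ k ∈ Finset.range n, ((k + (j + 1) : ℕ) : ℝ) ^ 6 * (3 / 4 : ℝ) ^ (k + (j + 1)) =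
        3 / 4 * ∑ k ∈ Finset.range n, (((k + j : ℕ) : ℝ) + 1) ^ 6 * (3 / 4 : ℝ) ^ (k + j) := by
      rw [Finset.mul_sum]
      refine Finset.sum_congr rfl fun k _ => ?_
      rw [← add_assoc, pow_succ (3 / 4 : ℝ), Nat.cast_succ]
      ring
    have := eps_pos
    linarith
  have hone : ∀ k, (((k + j : ℕ) : ℝ) + 1) ^ 6 * (3 / 4 : ℝ) ^ (k + j) ≤ eps / 500 := fun k =>
    (Finset.single_le_sum (f := fun k => (((k + j : ℕ) : ℝ) + 1) ^ 6 * (3 / 4 : ℝ) ^ (k + j))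
      (fun k _ => by positivity) (Finset.self_mem_range_succ k)).trans (hsum (k + 1))
  have h34 : ∀ m : ℕ, (1 / 2 : ℝ) ^ m ≤ (3 / 4) ^ m := fun m =>
    pow_le_pow_left₀ (by norm_num) (by norm_num) m
  refine ⟨⟨fun k => (3 / 4) ^ (k + j), fun k => (1 / 2) ^ ((k + j) ^ 2),
    fun k => (1 / 2) ^ (2 * (k + j + 1) ^ 2), fun k => by positivity, fun k => ?_,
    fun k => by positivity, fun k => ?_, fun k => ?_, fun k => by positivity, fun k => ?_,
    fun k => ?_, fun k => ?_, fun k => ?_, fun k => ?_, fun n => ?_⟩⟩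
  · rw [add_right_comm, pow_succ, mul_comm]
  · exact (pow_le_pow_of_le_one (by norm_num) (by norm_num) (by nlinarith)).trans (h34 _)
  · have := ell_half (c := 10) (i := 2 * (k + 1 + j + 1) ^ 2) (j := 2 * (k + j + 1) ^ 2) 4
      (by nlinarith [Nat.zero_le k, Nat.zero_le j]) (by norm_num)
    linarith
  · have := ell_half (c := 10) (i := (k + j) ^ 2) (j := 0) 4
      (le_trans (by norm_num) (Nat.pow_le_pow_left (show 2 ≤ k + j by omega) 2)) (by norm_num)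
    rw [pow_zero] at this
    linarith
  · have := ell_half (c := 8) (i := (k + 1 + j) ^ 2) (j := (k + j) ^ 2) 3
      (by nlinarith [Nat.zero_le k]) (by norm_num)
    linarith
  · have := ell_half (c := 40) (i := (k + 1 + j) ^ 2) (j := k + j + (k + j) ^ 2) 6 (by nlinarith)
      (by norm_num)
    rw [pow_add (1 / 2 : ℝ) (k + j)] at this
    exact this.trans (mul_le_mul_of_nonneg_right (h34 _) (by positivity))
  · have := ell_half (c := 400) (i := 2 * (k + j + 1) ^ 2) (j := (k + 1 + j) ^ 2 + (k + 2)) 9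
      (by nlinarith) (by norm_num)
    rwa [pow_add (1 / 2 : ℝ) ((k + 1 + j) ^ 2)] at this
  · have h1 := ell_pow (k + j)
    have h2 : 0 < ell ((1 / 2) ^ (2 * (k + j + 1) ^ 2)) :=
      ell_pos (by positivity) (pow_le_one₀ (by norm_num) (by norm_num))
    have h3 := pow_le_pow_left₀ h2.le h1 3
    have h4 := hone k
    have h5 : (0 : ℝ) ≤ (3 / 4) ^ (k + j) := by positivity
    rw [mu, ← div_eq_mul_inv, le_div_iff₀ (by positivity)]
    nlinarith [mul_le_mul_of_nonneg_left h3 h5]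
  · have h1 : ∑ k ∈ Finset.range n, (3 / 4 : ℝ) ^ (k + j) * ell ((1 / 2) ^ (2 * (k + j + 1) ^ 2)) ≤
        ∑ k ∈ Finset.range n, 5 * ((((k + j : ℕ) : ℝ) + 1) ^ 6 * (3 / 4 : ℝ) ^ (k + j)) :=
      Finset.sum_le_sum fun k _ => by
        have h1 := ell_pow (k + j)
        have h2 : (((k + j : ℕ) : ℝ) + 1) ^ 2 ≤ (((k + j : ℕ) : ℝ) + 1) ^ 6 :=
          pow_le_pow_right₀ (by have := (k + j).cast_nonneg (α := ℝ); linarith) (by norm_num)
        have h5 : (0 : ℝ) ≤ (3 / 4) ^ (k + j) := by positivity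
        nlinarith [mul_le_mul_of_nonneg_left h1 h5, mul_le_mul_of_nonneg_left h2 h5]
    rw [← Finset.mul_sum] at h1
    have := hsum n
    have := eps_pos
    linarith

end P140S
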