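import Vale.Agent.P140S.Def
import Vale.Agent.P140.TSStab
import Vale.Agent.P140.Carl
import Vale.Agent.P140.Graph
import Vale.Agent.P140.Chain
import Vale.Agent.P140.Meas

noncomputable section
namespace P140S
open MeasureTheory Set Real Filter Vale.Agent.P140
open scoped ENNReal Topology Classical

/-- The constant of the local gain bound. -/
def gbdC (R : ℝ) : ℝ := R * ((volume (Metric.closedBall (0 : E) R)).toReal * (sph univ).toReal)

lemma gbd_post {R : ℝ} (v w : E) (ω : S2) (h : ‖v - w‖ ≤ R) :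
    ‖v‖ - R ≤ ‖vp v w ω‖ ∧ ‖v‖ - R ≤ ‖wp v w ω‖ := by
  have e := energy_post v w v ω
  rw [sub_self, norm_zero, norm_sub_rev w v] at e
  have h1 : ‖vp v w ω - v‖ ≤ ‖v - w‖ :=
    (pow_le_pow_iff_left₀ (norm_nonneg _) (norm_nonneg _) two_ne_zero).1
      (by nlinarith [sq_nonneg ‖wp v w ω - v‖])
  have h2 : ‖wp v w ω - v‖ ≤ ‖v - w‖ :=
    (pow_le_pow_iff_left₀ (norm_nonneg _) (norm_nonneg _) two_ne_zero).1
      (by nlinarith [sq_nonneg ‖vp v w ω - v‖])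
  have h3 := norm_sub_norm_le v (vp v w ω)
  have h4 := norm_sub_norm_le v (wp v w ω)
  rw [norm_sub_rev] at h3 h4
  constructor <;> linarith

lemma gbd_gain {R δ ρ ε : ℝ} (hR : 0 < R) (hδ : 0 < δ) (hε : 0 ≤ ε) {f : Om → ℝ}
    (h0 : ∀ p, 0 ≤ f p) (hf : ∀ p : Om, ρ ≤ ‖p.2‖ → f p ≤ ε) (p : Om) (hp : ρ + R ≤ ‖p.2‖) :
    gT R δ f p ≤ gbdC R * ε ^ 2 := by
  have hB : volume (Metric.closedBall p.2 R) = volume (Metric.closedBall (0 : E) R) :=
    Measure.addHaar_closedBall_center _ _ _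
  have hfin : volume (Metric.closedBall (0 : E) R) ≠ ⊤ := measure_closedBall_lt_top.ne
  have key : gainK (kT R) (sl f p.1) (sl f p.1) p.2 ≤ ENNReal.ofReal (gbdC R * ε ^ 2) := by
    have h1 : gainK (kT R) (sl f p.1) (sl f p.1) p.2 ≤
        ∫⁻ q : E × S2, (Metric.closedBall p.2 R ×ˢ (univ : Set S2)).indicator
          (fun _ => ENNReal.ofReal (R * ε ^ 2)) q ∂(volume.prod sph) := by
      refine lintegral_mono fun q => ?_
      by_cases hq : ‖p.2 - q.1‖ ≤ R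
      · have hm : q ∈ Metric.closedBall p.2 R ×ˢ (univ : Set S2) :=
          ⟨by rw [Metric.mem_closedBall, dist_comm, dist_eq_norm]; exact hq, mem_univ _⟩
        rw [indicator_of_mem hm]
        obtain ⟨a1, a2⟩ := gbd_post p.2 q.1 q.2 hq
        have b1 := hf (p.1, vp p.2 q.1 q.2) (by simp only; linarith)
        have b2 := hf (p.1, wp p.2 q.1 q.2) (by simp only; linarith)
        have b3 : kT R |cf p.2 q.1 q.2| ‖p.2 - q.1‖ ≤ R := by
          unfold kT; rw [if_pos hq]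
          exact (min_le_left _ _).trans ((abs_cf_le _ _ _).trans hq)
        rw [ENNReal.ofReal_mul hR.le, sq, ENNReal.ofReal_mul hε]
        exact mul_le_mul' (ENNReal.ofReal_le_ofReal b3)
          (mul_le_mul' (ENNReal.ofReal_le_ofReal b1) (ENNReal.ofReal_le_ofReal b2))
      · have : kT R |cf p.2 q.1 q.2| ‖p.2 - q.1‖ = 0 := by unfold kT; rw [if_neg hq]
        simp only [this, ENNReal.ofReal_zero, zero_mul, zero_le]
    refine h1.trans (le_of_eq ?_)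
    rw [lintegral_indicator_const (measurableSet_closedBall.prod MeasurableSet.univ),
      Measure.prod_prod, hB, gbdC, mul_right_comm,
      ENNReal.ofReal_mul (p := R * ε ^ 2) (by positivity),
      ← ENNReal.toReal_mul, ENNReal.ofReal_toReal (ENNReal.mul_ne_top hfin (measure_ne_top _ _))]
  have hc : 0 ≤ gbdC R * ε ^ 2 := by unfold gbdC; positivity
  have h2 : (gainK (kT R) (sl f p.1) (sl f p.1) p.2).toReal ≤ gbdC R * ε ^ 2 :=
    ENNReal.toReal_le_of_le_ofReal hc key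
  have h3 : 0 ≤ rho f p.1 := integral_nonneg fun v => h0 _
  unfold gT
  refine (div_le_self ENNReal.toReal_nonneg ?_).trans h2
  have := mul_nonneg hδ.le h3
  linarith

lemma gbd_Mx (v : E) : Mx v ≤ exp (-‖v‖ ^ 2 / 2) := by
  unfold Mx
  have h : (2 * π) ^ (-(3 / 2 : ℝ)) ≤ 1 :=
    rpow_le_one_of_one_le_of_nonpos (by linarith [pi_gt_three]) (by norm_num)
  exact mul_le_of_le_one_left (exp_pos _).le h

lemma gbd_step {R δ K ρ ε : ℝ} (hR : 0 < R) (hδ : 0 < δ) (hε : 0 ≤ ε) {F₀ : Om → ℝ}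
    {F : ℝ → Om → ℝ} (h : TS R δ F₀ F) (hb : ∀ p : Om, F₀ p ≤ K * Mx p.2)
    (hf : ∀ t ∈ Icc (0 : ℝ) 1, ∀ p : Om, ρ ≤ ‖p.2‖ → F t p ≤ ε) :
    ∀ t ∈ Icc (0 : ℝ) 1, ∀ p : Om, ρ + R ≤ ‖p.2‖ →
      F t p ≤ |K| * exp (-‖p.2‖ ^ 2 / 2) + gbdC R * ε ^ 2 := by
  intro t ht p hp
  have e : p = fl t (fl (-t) p) := by rw [fl_fl, add_neg_cancel, fl_zero]
  set q := fl (-t) p with hq
  have hq2 : q.2 = p.2 := rfl
  have hc : 0 ≤ gbdC R * ε ^ 2 := by unfold gbdC; positivity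
  have h1 : F₀ q ≤ |K| * exp (-‖p.2‖ ^ 2 / 2) := by
    refine (hb q).trans ?_
    rw [hq2]
    exact (mul_le_mul_of_nonneg_right (le_abs_self K) (Mx_pos _).le).trans
      (mul_le_mul_of_nonneg_left (gbd_Mx _) (abs_nonneg K))
  have h2 : ∫ s in (0 : ℝ)..t, (gT R δ (F s) (fl s q) - nT R δ (F s) (fl s q) * F s (fl s q)) ≤
      gbdC R * ε ^ 2 := by
    by_cases hi : IntervalIntegrable
      (fun s => gT R δ (F s) (fl s q) - nT R δ (F s) (fl s q) * F s (fl s q)) volume 0 t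
    · have h3 := intervalIntegral.integral_mono_on (g := fun _ => gbdC R * ε ^ 2) ht.1 hi
        intervalIntegrable_const (fun s hs => by
          have a1 := gbd_gain hR hδ hε (h.nonneg s) (hf s ⟨hs.1, hs.2.trans ht.2⟩) (fl s q) hp
          have a2 : 0 ≤ nT R δ (F s) (fl s q) := by
            have h3 : 0 ≤ rho (F s) (fl s q).1 := integral_nonneg fun v => h.nonneg _ _
            unfold nT; positivity
          have a3 := mul_nonneg a2 (h.nonneg s (fl s q))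
          linarith)
      rw [intervalIntegral.integral_const, smul_eq_mul, sub_zero] at h3
      exact h3.trans (mul_le_of_le_one_left hc ht.2)
    · rw [intervalIntegral.integral_undef hi]; exact hc
  have h3 := h.mild t ht.1 q
  rw [← e] at h3
  linarith

lemma gbd_num {R K c m : ℝ} (hR : 0 < R) (hK : 0 ≤ K) (hc : 0 ≤ c) (hm : 2 ≤ m)
    (hKm : K * exp (-m) ≤ 1 / (2 * (2 * c + 1))) (j : ℕ) {x : ℝ}
    (hx : m + ((j : ℝ) + 4) * R ≤ x) :
    K * exp (-x ^ 2 / 2) + c * (exp (-(R ^ 2 * ((j : ℝ) + 3) ^ 2 / 2)) / (2 * c + 1)) ^ 2 ≤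
      exp (-(R ^ 2 * ((j : ℝ) + 4) ^ 2 / 2)) / (2 * c + 1) := by
  have hj : (0 : ℝ) ≤ j := Nat.cast_nonneg j
  set A := exp (-(R ^ 2 * ((j : ℝ) + 4) ^ 2 / 2)) with hA
  have hA0 : 0 < A := exp_pos _
  have hL : 0 < 2 * c + 1 := by linarith
  have hy : 0 ≤ ((j : ℝ) + 4) * R := by positivity
  have h1 : exp (-x ^ 2 / 2) ≤ exp (-m) * A := by
    rw [hA, ← exp_add]
    refine exp_le_exp.2 ?_
    have : (m + ((j : ℝ) + 4) * R) ^ 2 ≤ x ^ 2 := pow_le_pow_left₀ (by linarith) hx 2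
    nlinarith [mul_nonneg (by linarith : 0 ≤ m) hy]
  have h2 : exp (-(R ^ 2 * ((j : ℝ) + 3) ^ 2 / 2)) ^ 2 ≤ A := by
    rw [hA, ← exp_nat_mul]
    refine exp_le_exp.2 ?_
    have : ((j : ℝ) + 4) ^ 2 ≤ 2 * ((j : ℝ) + 3) ^ 2 := by nlinarith
    have := mul_le_mul_of_nonneg_left this (sq_nonneg R)
    push_cast
    linarith
  have h3 : K * exp (-x ^ 2 / 2) ≤ A / (2 * (2 * c + 1)) := by
    calc K * exp (-x ^ 2 / 2) ≤ K * (exp (-m) * A) := mul_le_mul_of_nonneg_left h1 hK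
      _ = K * exp (-m) * A := by ring
      _ ≤ 1 / (2 * (2 * c + 1)) * A := mul_le_mul_of_nonneg_right hKm hA0.le
      _ = _ := by ring
  have h4 : c * (exp (-(R ^ 2 * ((j : ℝ) + 3) ^ 2 / 2)) / (2 * c + 1)) ^ 2 ≤
      A / (2 * (2 * c + 1)) := by
    rw [div_pow]
    calc c * (exp (-(R ^ 2 * ((j : ℝ) + 3) ^ 2 / 2)) ^ 2 / (2 * c + 1) ^ 2)
        ≤ c * (A / (2 * c + 1) ^ 2) := by gcongr
      _ = (2 * c / (2 * c + 1)) * (A / (2 * (2 * c + 1))) := by field_simp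
      _ ≤ _ := mul_le_of_le_one_left (by positivity) ((div_le_one hL).2 (by linarith))
  have h5 : A / (2 * (2 * c + 1)) + A / (2 * (2 * c + 1)) = A / (2 * c + 1) := by
    field_simp; ring
  linarith

theorem ts_gauss {R δ K : ℝ} (hR : 0 < R) (hδ : 0 < δ) {F₀ : Om → ℝ} {F : ℝ → Om → ℝ}
    (h : TS R δ F₀ F) (hb : ∀ p : Om, F₀ p ≤ K * Mx p.2) :
    ∃ K1 : ℝ, 0 ≤ K1 ∧ ∀ t ∈ Icc (0 : ℝ) 1, ∀ p : Om, F t p ≤ K1 * exp (-(3 / 8) * ‖p.2‖ ^ 2) := by
  obtain ⟨C, hC⟩ := h.bound 1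
  have hC' : ∀ t ∈ Icc (0 : ℝ) 1, ∀ p : Om, F t p ≤ |C| * exp (-‖p.2‖) := fun t ht p =>
    (hC t ht p).trans (mul_le_mul_of_nonneg_right (le_abs_self C) (exp_pos _).le)
  have hc : 0 ≤ gbdC R := by unfold gbdC; positivity
  set c := gbdC R with hcdef
  have hL : 0 < 2 * c + 1 := by linarith
  set B := exp (R ^ 2 * 9 / 2) with hB
  have hB1 : 1 ≤ B := one_le_exp (by positivity)
  set m := (|C| + 2 * |K|) * (2 * c + 1) * B + 2 with hm
  have hm0 : 0 ≤ (|C| + 2 * |K|) * (2 * c + 1) * B := by positivity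
  have hm2 : 2 ≤ m := by linarith
  have hem : (|C| + 2 * |K|) * (2 * c + 1) * B * exp (-m) ≤ 1 := by
    rw [exp_neg, ← div_eq_mul_inv, div_le_one (exp_pos _)]
    linarith [add_one_le_exp m]
  have he : 0 < exp (-m) := exp_pos _
  have hKm : |K| * exp (-m) ≤ 1 / (2 * (2 * c + 1)) := by
    rw [le_div_iff₀ (by positivity)]
    refine le_trans ?_ hem
    have a1 : 0 ≤ |K| * exp (-m) * (2 * (2 * c + 1)) := by positivity
    have a2 : 0 ≤ |C| * (2 * c + 1) * B * exp (-m) := by positivity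
    nlinarith [mul_le_mul_of_nonneg_left hB1 a1]
  have hCm : |C| * exp (-m) ≤ exp (-(R ^ 2 * (((0 : ℕ) : ℝ) + 3) ^ 2 / 2)) / (2 * c + 1) := by
    have e : exp (-(R ^ 2 * (((0 : ℕ) : ℝ) + 3) ^ 2 / 2)) = 1 / B := by
      rw [hB, one_div, ← exp_neg]; congr 1; push_cast; ring
    rw [e, div_div, le_div_iff₀ (by positivity)]
    refine le_trans ?_ hem
    have a2 : 0 ≤ |K| * (2 * c + 1) * B * exp (-m) := by positivity
    nlinarith
  have ind : ∀ j : ℕ, ∀ t ∈ Icc (0 : ℝ) 1, ∀ p : Om, m + ((j : ℝ) + 3) * R ≤ ‖p.2‖ →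
      F t p ≤ exp (-(R ^ 2 * ((j : ℝ) + 3) ^ 2 / 2)) / (2 * c + 1) := by
    intro j
    induction j with
    | zero =>
      intro t ht p hp
      refine (hC' t ht p).trans (le_trans ?_ hCm)
      have : 0 ≤ (((0 : ℕ) : ℝ) + 3) * R := by positivity
      exact mul_le_mul_of_nonneg_left (exp_le_exp.2 (by linarith)) (abs_nonneg C)
    | succ j ih =>
      intro t ht p hp
      have e : ((j + 1 : ℕ) : ℝ) + 3 = (j : ℝ) + 4 := by push_cast; ring
      rw [e] at hp ⊢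
      have := gbd_step hR hδ (by positivity) h hb ih t ht p (by linarith)
      exact this.trans (gbd_num hR (abs_nonneg K) hc hm2 hKm j hp)
  refine ⟨|C| * exp (3 / 8 * (m + 3 * R) ^ 2) + exp (3 / 2 * (m + R) ^ 2), by positivity,
    fun t ht p => ?_⟩
  have hx := norm_nonneg p.2
  have a1 : 0 ≤ |C| * exp (3 / 8 * (m + 3 * R) ^ 2) * exp (-(3 / 8) * ‖p.2‖ ^ 2) := by positivity
  have a2 : 0 ≤ exp (3 / 2 * (m + R) ^ 2) * exp (-(3 / 8) * ‖p.2‖ ^ 2) := by positivity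
  rw [add_mul]
  by_cases hp : ‖p.2‖ ≤ m + 3 * R
  · have b1 : exp (-‖p.2‖) ≤ exp (3 / 8 * (m + 3 * R) ^ 2) * exp (-(3 / 8) * ‖p.2‖ ^ 2) := by
      rw [← exp_add]
      refine exp_le_exp.2 ?_
      have : ‖p.2‖ ^ 2 ≤ (m + 3 * R) ^ 2 := pow_le_pow_left₀ hx hp 2
      linarith
    have b2 := mul_le_mul_of_nonneg_left b1 (abs_nonneg C)
    have b3 := hC' t ht p
    rw [← mul_assoc] at b2
    linarith
  · push Not at hp
    have hz : 0 ≤ (‖p.2‖ - m) / R - 3 := by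
      rw [sub_nonneg, le_div_iff₀ hR]; linarith
    set j := ⌊(‖p.2‖ - m) / R - 3⌋₊ with hj
    have j1 : (j : ℝ) + 3 ≤ (‖p.2‖ - m) / R := by linarith [Nat.floor_le hz]
    have j2 : (‖p.2‖ - m) / R < (j : ℝ) + 4 := by
      linarith [Nat.lt_floor_add_one ((‖p.2‖ - m) / R - 3)]
    rw [le_div_iff₀ hR] at j1
    rw [div_lt_iff₀ hR] at j2
    have b1 := ind j t ht p (by linarith)
    have b2 : exp (-(R ^ 2 * ((j : ℝ) + 3) ^ 2 / 2)) ≤
        exp (3 / 2 * (m + R) ^ 2) * exp (-(3 / 8) * ‖p.2‖ ^ 2) := by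
      rw [← exp_add]
      refine exp_le_exp.2 ?_
      have c1 : (‖p.2‖ - (m + R)) ^ 2 ≤ (((j : ℝ) + 3) * R) ^ 2 :=
        pow_le_pow_left₀ (by linarith) (by linarith) 2
      nlinarith [sq_nonneg (‖p.2‖ - 4 * (m + R))]
    have b3 : exp (-(R ^ 2 * ((j : ℝ) + 3) ^ 2 / 2)) / (2 * c + 1) ≤
        exp (-(R ^ 2 * ((j : ℝ) + 3) ^ 2 / 2)) := div_le_self (exp_pos _).le (by linarith)
    linarith

end P140S
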