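import Vale.Agent.P140S.Marg
import Vale.Agent.P140.Arch
import Vale.Agent.P140.PrePost
import Vale.Agent.P140.Meas

noncomputable section
namespace P140S
open MeasureTheory Set Real Filter Vale.Agent.P140
open scoped ENNReal Topology Classical

theorem geo_two (v : E) : |v 2| ≤ ‖v‖ := by
  simpa using PiLp.norm_apply_le v 2

theorem J_comm (v w : E) : J w v = J v w := J_swap v w
theorem abs_le_of_mem_J {u w : E} {x : ℝ} (h : x ∈ J u w) :
    |x| ≤ ‖u‖ + ‖w‖ ∧ |x| ≤ |u 2| + ‖u - w‖ := by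
  have h1 : |x - (u 2 + w 2) / 2| ≤ ‖u - w‖ / 2 := h
  have h2 := abs_le.1 (geo_two u)
  have h3 := abs_le.1 (geo_two w)
  have h4 := norm_sub_le u w
  have h5 : |u 2 - w 2| ≤ ‖u - w‖ := by simpa using geo_two (u - w)
  have h6 := abs_le.1 h1
  have h7 := abs_le.1 h5
  have h8 := le_abs_self (u 2)
  have h9 := neg_abs_le (u 2)
  constructor <;> rw [abs_le] <;> constructor <;> linarith
theorem vol_J (v w : E) : volume (J v w) = ENNReal.ofReal ‖v - w‖ := volume_J v w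
theorem mset_J (v w : E) : MeasurableSet (J v w) := measurableSet_J v w
theorem meas_J {α : Type*} [MeasurableSpace α] {a b : α → E} {t : α → ℝ} (ha : Measurable a)
    (hb : Measurable b) (ht : Measurable t) :
    Measurable fun x => (J (a x) (b x)).indicator (1 : ℝ → ℝ≥0∞) (t x) := by
  have h2 : Measurable fun v : E => v 2 := (by fun_prop : Continuous fun v : E => v 2).measurable
  have hs : MeasurableSet {x | |t x - (a x 2 + b x 2) / 2| ≤ ‖a x - b x‖ / 2} :=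
    measurableSet_le (ht.sub (((h2.comp ha).add (h2.comp hb)).div_const 2)).abs
      ((ha.sub hb).norm.div_const 2)
  exact (measurable_one.indicator hs :
    Measurable ({x | |t x - (a x 2 + b x 2) / 2| ≤ ‖a x - b x‖ / 2}.indicator (1 : α → ℝ≥0∞)))
theorem norm_col (v w : E) (ω : S2) : ‖vp v w ω‖ ^ 2 + ‖wp v w ω‖ ^ 2 = ‖v‖ ^ 2 + ‖w‖ ^ 2 := by
  simpa using energy_post v w 0 ω
theorem norm_vp_le (v w : E) (ω : S2) : ‖vp v w ω‖ ≤ ‖v‖ + ‖w‖ := by
  have h := norm_col v w ω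
  refine le_of_sq_le_sq ?_ (by positivity)
  nlinarith [sq_nonneg ‖wp v w ω‖, mul_nonneg (norm_nonneg v) (norm_nonneg w)]
theorem norm_wp_le (v w : E) (ω : S2) : ‖wp v w ω‖ ≤ ‖v‖ + ‖w‖ := by
  have h := norm_col v w ω
  refine le_of_sq_le_sq ?_ (by positivity)
  nlinarith [sq_nonneg ‖vp v w ω‖, mul_nonneg (norm_nonneg v) (norm_nonneg w)]
theorem abs_two_le (v : E) : |v 2| ≤ ‖v‖ := geo_two v
theorem kT_le {N a r : ℝ} (ha : 0 ≤ a) : kT N a r ≤ a := kT_le_self N a r ha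
theorem kT_ge {N a r : ℝ} (hN : 0 < N) (hr : r ≤ N) : a - 1 / (4 * N) ≤ kT N a r := by
  rw [kT, if_pos hr]
  have h0 : 0 < 1 / (4 * N) := by positivity
  refine le_min (by linarith) ?_
  have h1 : N * a ^ 2 - a + 1 / (4 * N) = N * (a - 1 / (2 * N)) ^ 2 := by field_simp; ring
  have h2 : 0 ≤ N * (a - 1 / (2 * N)) ^ 2 := by positivity
  linarith
theorem sph_tot : sph univ = ENNReal.ofReal (4 * π) := sph_univ arch
theorem tot (v w : E) :
    ∫⁻ ω, ENNReal.ofReal |cf v w ω| ∂sph = ENNReal.ofReal (2 * π * ‖v - w‖) := lint_cf arch v w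
theorem kap_comm (N : ℝ) (v w : E) : kap N w v = kap N v w := by
  unfold kap
  refine lintegral_congr fun ω => ?_
  rw [cf_swap v w, abs_neg, norm_sub_rev]
theorem kap_le (N : ℝ) (v w : E) : kap N v w ≤ ENNReal.ofReal (2 * π * ‖v - w‖) :=
  lint_kT_le arch N v w
theorem kap_le_N (N : ℝ) (v w : E) : kap N v w ≤ ENNReal.ofReal (2 * π * N) := by
  by_cases h : ‖v - w‖ ≤ N
  · exact (kap_le N v w).trans (ENNReal.ofReal_le_ofReal
      (mul_le_mul_of_nonneg_left h (by positivity)))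
  · simp [kap, kT, h]
theorem kap_ge {N : ℝ} (hN : 0 < N) {v w : E} (h : ‖v - w‖ ≤ N) :
    ENNReal.ofReal (2 * π * ‖v - w‖) ≤ kap N v w + ENNReal.ofReal (π / N) := by
  have h1 : ENNReal.ofReal (π / N) = ∫⁻ _ : S2, ENNReal.ofReal (1 / (4 * N)) ∂sph := by
    rw [lintegral_const, sph_tot, ← ENNReal.ofReal_mul (by positivity)]
    congr 1
    field_simp
  rw [← tot, h1, kap, ← lintegral_add_right _ measurable_const]
  refine lintegral_mono fun ω => ?_
  refine le_trans (ENNReal.ofReal_le_ofReal ?_) ENNReal.ofReal_add_le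
  linarith [kT_ge (a := |cf v w ω|) hN h]
theorem meas_kT (N : ℝ) {α : Type*} [MeasurableSpace α] {a b : α → E} {o : α → S2}
    (ha : Measurable a) (hb : Measurable b) (ho : Measurable o) :
    Measurable fun x => ENNReal.ofReal (kT N |cf (a x) (b x) (o x)| ‖a x - b x‖) := by
  have h1 : Measurable fun x => cf (a x) (b x) (o x) :=
    continuous_cf.measurable.fun_comp (ha.prodMk (hb.prodMk ho))
  have h2 : Measurable fun z : ℝ × ℝ => kT N z.1 z.2 := meas.2.1 N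
  exact (h2.fun_comp (h1.abs.prodMk (ha.sub hb).norm)).ennreal_ofReal
theorem meas_kap (N : ℝ) {α : Type*} [MeasurableSpace α] {a b : α → E}
    (ha : Measurable a) (hb : Measurable b) : Measurable fun x => kap N (a x) (b x) :=
  Measurable.lintegral_prod_right'
    (f := fun z : α × S2 => ENNReal.ofReal (kT N |cf (a z.1) (b z.1) z.2| ‖a z.1 - b z.1‖))
    (meas_kT N (ha.comp measurable_fst) (hb.comp measurable_fst) measurable_snd)
theorem freq_eq (N : ℝ) {g : E → ℝ≥0∞} (hg : Measurable g) (v : E) :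
    freqK (kT N) g v = ∫⁻ w, kap N v w * g w := by
  have hm : Measurable fun q : E × S2 =>
      ENNReal.ofReal (kT N |cf v q.1 q.2| ‖v - q.1‖) * g q.1 :=
    (meas_kT N measurable_const measurable_fst measurable_snd).mul (hg.fun_comp measurable_fst)
  rw [freqK, lintegral_prod _ hm.aemeasurable]
  refine lintegral_congr fun w => ?_
  exact lintegral_mul_const (g w) (meas_kT N measurable_const measurable_const measurable_id)

theorem geo_inner (N : ℝ) {g φ : E → ℝ≥0∞} (hg : Measurable g) (hφ : Measurable φ) (c : ℝ≥0∞)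
    (u : E) : c * ∫⁻ q : E × S2, ENNReal.ofReal (kT N |cf u q.1 q.2| ‖u - q.1‖) *
        (g q.1 * φ (vp u q.1 q.2)) ∂(volume.prod sph) = ∫⁻ w, c * g w *
      ∫⁻ ω, ENNReal.ofReal (kT N |cf u w ω| ‖u - w‖) * φ (vp u w ω) ∂sph := by
  have hv : Measurable fun q : E × S2 => vp u q.1 q.2 :=
    Continuous.measurable (by unfold vp cf; fun_prop)
  have hk : Measurable fun q : E × S2 => ENNReal.ofReal (kT N |cf u q.1 q.2| ‖u - q.1‖) :=
    meas_kT N measurable_const measurable_fst measurable_snd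
  have hm : Measurable fun q : E × S2 => ENNReal.ofReal (kT N |cf u q.1 q.2| ‖u - q.1‖) *
      (g q.1 * φ (vp u q.1 q.2)) := hk.mul ((hg.fun_comp measurable_fst).mul (hφ.fun_comp hv))
  rw [lintegral_prod _ hm.aemeasurable, ← lintegral_const_mul _ hm.lintegral_prod_right']
  refine lintegral_congr fun w => ?_
  have hv' : Measurable fun ω : S2 => vp u w ω :=
    Continuous.measurable (by unfold vp cf; fun_prop)
  have hw : Measurable fun ω : S2 => ENNReal.ofReal (kT N |cf u w ω| ‖u - w‖) * φ (vp u w ω) :=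
    (meas_kT N measurable_const measurable_const measurable_id).mul (hφ.fun_comp hv')
  rw [mul_assoc, ← lintegral_const_mul (g w) hw]
  congr 1
  exact lintegral_congr fun ω => mul_left_comm _ _ _

theorem gain_weak (N : ℝ) {f g φ : E → ℝ≥0∞} (hf : Measurable f) (hg : Measurable g)
    (hφ : Measurable φ) : ∫⁻ v, φ v * gainK (kT N) f g v = ∫⁻ u, ∫⁻ w, f u * g w *
      ∫⁻ ω, ENNReal.ofReal (kT N |cf u w ω| ‖u - w‖) * φ (vp u w ω) ∂sph := by
  rw [(weak prePost).1 _ f g φ (meas.2.1 N) hf hg hφ]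
  exact lintegral_congr fun u => geo_inner N hg hφ (f u) u
theorem gain_weak' (N : ℝ) {f g φ : E → ℝ≥0∞} (hf : Measurable f) (hg : Measurable g)
    (hφ : Measurable φ) : ∫⁻ v, φ v * gainK (kT N) g f v = ∫⁻ u, ∫⁻ w, f u * g w *
      ∫⁻ ω, ENNReal.ofReal (kT N |cf u w ω| ‖u - w‖) * φ (wp u w ω) ∂sph := by
  rw [gain_weak N hg hf hφ, lintegral_lintegral_swap]
  · refine lintegral_congr fun u => lintegral_congr fun w => ?_
    rw [mul_comm (g w)]
    congr 1
    refine lintegral_congr fun ω => ?_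
    rw [cf_swap u w, abs_neg, norm_sub_rev, vp_swap]
  · refine (((hg.fun_comp measurable_fst).mul (hf.fun_comp measurable_snd)).mul ?_).aemeasurable
    refine Measurable.lintegral_prod_right' (f := fun z : (E × E) × S2 =>
      ENNReal.ofReal (kT N |cf z.1.1 z.1.2 z.2| ‖z.1.1 - z.1.2‖) * φ (vp z.1.1 z.1.2 z.2)) ?_
    have hv : Measurable fun z : (E × E) × S2 => vp z.1.1 z.1.2 z.2 :=
      Continuous.measurable (by unfold vp cf; fun_prop)
    exact (meas_kT N measurable_fst.fst measurable_fst.snd measurable_snd).mul (hφ.fun_comp hv)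
theorem th_pos {N : ℝ} (hN : 0 ≤ N) {g : E → ℝ} (hg : ∀ v, 0 ≤ g v) : 0 < th N g := by
  have h : 0 ≤ ∫ v, g v := integral_nonneg hg
  unfold th
  positivity
theorem th_le_one {N : ℝ} (hN : 0 ≤ N) {g : E → ℝ} (hg : ∀ v, 0 ≤ g v) : th N g ≤ 1 := by
  have h : 0 ≤ ∫ v, g v := integral_nonneg hg
  have h1 : 0 ≤ N⁻¹ * ∫ v, g v := by positivity
  exact inv_le_one_of_one_le₀ (by linarith)
theorem th_ge {N : ℝ} (hN : 0 < N) {g : E → ℝ} (hm : Measurable g) (hg : ∀ v, 0 ≤ g v)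
    (h : ∫⁻ v, ENNReal.ofReal (g v) ≤ ENNReal.ofReal N) : 1 / 2 ≤ th N g := by
  have h0 : 0 ≤ ∫ v, g v := integral_nonneg hg
  have h1 : ∫ v, g v ≤ N := by
    rw [integral_eq_lintegral_of_nonneg_ae (Eventually.of_forall hg) hm.aestronglyMeasurable]
    exact ENNReal.toReal_le_of_le_ofReal hN.le h
  have h2 : N⁻¹ * ∫ v, g v ≤ 1 := by
    rw [inv_mul_le_iff₀ hN, mul_one]; exact h1
  rw [th, one_div]
  exact inv_anti₀ (by positivity) (by linarith)
section
variable {α : Type} [MeasurableSpace α] {g a b : α → E → ℝ} {v : α → E} (N : ℝ)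
theorem meas_th (hg : Measurable (Function.uncurry g)) : Measurable fun x => th N (g x) := by
  have h : Measurable fun x => ∫ w, g x w :=
    (hg.stronglyMeasurable.integral_prod_right' (ν := (volume : Measure E))).measurable
  exact (measurable_const.add (h.const_mul _)).inv
theorem meas_nl (hg : Measurable (Function.uncurry g)) (ha : Measurable (Function.uncurry a))
    (hv : Measurable v) : Measurable fun x => nl N (g x) (a x) (v x) :=
  (meas_th N hg).ennreal_ofReal.mul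
    (meas.2.2.2.1 α (kT N) (fun x => up (a x)) (fun x => up (a x)) v (meas.2.1 N)
      ha.ennreal_ofReal ha.ennreal_ofReal hv).2
theorem meas_gk (hg : Measurable (Function.uncurry g)) (ha : Measurable (Function.uncurry a))
    (hb : Measurable (Function.uncurry b)) (hv : Measurable v) :
    Measurable fun x => gk N (g x) (a x) (b x) (v x) :=
  (meas_th N hg).ennreal_ofReal.mul
    (meas.2.2.2.1 α (kT N) (fun x => up (a x)) (fun x => up (b x)) v (meas.2.1 N)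
      ha.ennreal_ofReal hb.ennreal_ofReal hv).1
end
theorem om_pos (t : ℝ) (v : E) : 0 < om t v := exp_pos _
theorem one_le_om {t : ℝ} (ht : t ≤ 2) (v : E) : 1 ≤ om t v :=
  one_le_exp (div_nonneg (mul_nonneg (sub_nonneg.2 ht) (sq_nonneg _)) (by norm_num))
theorem om_le {t : ℝ} (ht : 0 ≤ t) (v : E) : om t v ≤ exp (‖v‖ ^ 2 / 4) := by
  refine exp_le_exp.2 ?_
  nlinarith [mul_nonneg ht (sq_nonneg ‖v‖)]
theorem om_le_of_norm {t : ℝ} (ht : 0 ≤ t) {v : E} (hv : ‖v‖ ≤ 1) : om t v ≤ 4 / 3 := by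
  have h1 : ‖v‖ ^ 2 / 4 ≤ 1 / 4 := by nlinarith [norm_nonneg v]
  have h2 := add_one_le_exp (-(1 / 4 : ℝ))
  have h3 : exp (1 / 4 : ℝ) * exp (-(1 / 4 : ℝ)) = 1 := by rw [← exp_add]; simp
  have h4 := exp_pos (1 / 4 : ℝ)
  refine (om_le ht v).trans ((exp_le_exp.2 h1).trans ?_)
  nlinarith
theorem meas_om : Measurable fun y : ℝ × E => om y.1 y.2 := by
  unfold om
  exact Continuous.measurable (by fun_prop)
theorem om_col {s t : ℝ} (hst : s ≤ t) (ht : t ≤ 2) (u w : E) (ω : S2) :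
    om t (vp u w ω) ≤ om s u * om s w * exp (-((t - s) * (vp u w ω 2) ^ 2 / 8)) := by
  unfold om
  rw [← exp_add, ← exp_add]
  refine exp_le_exp.2 ?_
  have h1 := norm_col u w ω
  have h2 : (vp u w ω 2) ^ 2 ≤ ‖vp u w ω‖ ^ 2 := by
    rw [← sq_abs]
    exact pow_le_pow_left₀ (abs_nonneg _) (geo_two _) 2
  have h3 := mul_nonneg (sub_nonneg.2 hst) (sub_nonneg.2 h2)
  have h4 := mul_nonneg (sub_nonneg.2 (hst.trans ht)) (sq_nonneg ‖wp u w ω‖)
  have h5 : (2 - s) * ‖u‖ ^ 2 + (2 - s) * ‖w‖ ^ 2 =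
      (2 - s) * ‖vp u w ω‖ ^ 2 + (2 - s) * ‖wp u w ω‖ ^ 2 := by
    rw [← mul_add, ← mul_add, h1]
  nlinarith

theorem geo_gauss {b c : ℝ} (hb : 0 < b) (hc : 0 ≤ c) :
    ∫⁻ v : E, ENNReal.ofReal (c * exp (-b * ‖v‖ ^ 2)) =
      ENNReal.ofReal (c * (π / b) ^ (3 / 2 : ℝ)) := by
  have h1 : ∫ v : E, exp (-b * ‖v‖ ^ 2) = (π / b) ^ (3 / 2 : ℝ) := by
    rw [GaussianFourier.integral_rexp_neg_mul_sq_norm hb]
    simp
  have h2 : Integrable fun v : E => exp (-b * ‖v‖ ^ 2) :=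
    Integrable.of_integral_ne_zero (by rw [h1]; positivity)
  rw [← ofReal_integral_eq_lintegral_ofReal (h2.const_mul c)
    (Eventually.of_forall fun v => by positivity), integral_const_mul, h1]

theorem geo_rpow {c K : ℝ} (hc : 0 ≤ c) (hK : 0 ≤ K) (h : c ^ 3 ≤ K ^ 2) :
    (2 * π) ^ (-(3 / 2 : ℝ)) * (c * (2 * π)) ^ (3 / 2 : ℝ) ≤ K := by
  have h0 : 0 < 2 * π := by positivity
  have h1 : 0 < (2 * π) ^ (3 / 2 : ℝ) := by positivity
  rw [mul_rpow hc h0.le, rpow_neg h0.le, mul_comm (c ^ _), ← mul_assoc, inv_mul_cancel₀ h1.ne',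
    one_mul]
  refine le_of_sq_le_sq ?_ hK
  rw [← rpow_natCast (c ^ _), ← rpow_mul hc]
  have : (3 / 2 : ℝ) * (2 : ℕ) = (3 : ℕ) := by norm_num
  rw [this, rpow_natCast]
  exact h

theorem lint_gauss {a : ℝ} (ha : 0 < a) :
    ∫⁻ v : E, ENNReal.ofReal ((1 + ‖v‖) * exp (-a * ‖v‖ ^ 2)) < ⊤ := by
  refine lt_of_le_of_lt (lintegral_mono fun v => ENNReal.ofReal_le_ofReal ?_)
    ((geo_gauss (b := a / 2) (c := 1 + 1 / (2 * a)) (by positivity) (by positivity)).trans_lt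
      ENNReal.ofReal_lt_top)
  have h1 : exp (-(a / 2) * ‖v‖ ^ 2) = exp (a / 2 * ‖v‖ ^ 2) * exp (-a * ‖v‖ ^ 2) := by
    rw [← exp_add]; congr 1; ring
  rw [h1, ← mul_assoc]
  refine mul_le_mul_of_nonneg_right ?_ (exp_pos _).le
  have h2 := add_one_le_exp (a / 2 * ‖v‖ ^ 2)
  have h3 : 1 ≤ exp (a / 2 * ‖v‖ ^ 2) := one_le_exp (by positivity)
  have h4 : a / 2 * ‖v‖ ^ 2 - ‖v‖ + 1 / (2 * a) = a / 2 * (‖v‖ - 1 / a) ^ 2 := by
    field_simp; ring
  have h5 : 0 ≤ a / 2 * (‖v‖ - 1 / a) ^ 2 := by positivity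
  have h6 := mul_le_mul_of_nonneg_left h3 (show 0 ≤ 1 / (2 * a) by positivity)
  linarith

theorem geo_om_Mx {t : ℝ} (ht : 0 ≤ t) (v : E) :
    om t v * Mx v ≤ (2 * π) ^ (-(3 / 2 : ℝ)) * exp (-(1 / 4) * ‖v‖ ^ 2) := by
  have h1 : exp (-(1 / 4) * ‖v‖ ^ 2) = exp (‖v‖ ^ 2 / 4) * exp (-‖v‖ ^ 2 / 2) := by
    rw [← exp_add]; congr 1; ring
  rw [h1, mul_left_comm]
  exact mul_le_mul_of_nonneg_right (om_le ht v) (Mx_pos v).le

theorem lint_om_Mx {t : ℝ} (ht : 0 ≤ t) : ∫⁻ v, ENNReal.ofReal (om t v * Mx v) ≤ 3 := by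
  refine (lintegral_mono fun v => ENNReal.ofReal_le_ofReal (geo_om_Mx ht v)).trans ?_
  rw [geo_gauss (by norm_num) (by positivity), show π / (1 / 4) = 2 * (2 * π) by ring,
    ← ENNReal.ofReal_ofNat]
  exact ENNReal.ofReal_le_ofReal (geo_rpow (by norm_num) (by norm_num) (by norm_num))
theorem lint_om_Mx1 {t : ℝ} (ht : 0 ≤ t) :
    ∫⁻ v, ENNReal.ofReal ‖v‖ * ENNReal.ofReal (om t v * Mx v) ≤ 20 := by
  have h : ∀ v : E, ENNReal.ofReal ‖v‖ * ENNReal.ofReal (om t v * Mx v) ≤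
      ENNReal.ofReal (2 * (2 * π) ^ (-(3 / 2 : ℝ)) * exp (-(1 / 8) * ‖v‖ ^ 2)) := fun v => by
    rw [← ENNReal.ofReal_mul (norm_nonneg _)]
    refine ENNReal.ofReal_le_ofReal ?_
    have h1 : exp (-(1 / 8) * ‖v‖ ^ 2) = exp (‖v‖ ^ 2 / 8) * exp (-(1 / 4) * ‖v‖ ^ 2) := by
      rw [← exp_add]; congr 1; ring
    have h2 : ‖v‖ ≤ 2 * exp (‖v‖ ^ 2 / 8) := by
      nlinarith [add_one_le_exp (‖v‖ ^ 2 / 8), sq_nonneg (‖v‖ - 2)]
    calc ‖v‖ * (om t v * Mx v)
        ≤ (2 * exp (‖v‖ ^ 2 / 8)) * ((2 * π) ^ (-(3 / 2 : ℝ)) * exp (-(1 / 4) * ‖v‖ ^ 2)) :=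
          mul_le_mul h2 (geo_om_Mx ht v) (mul_pos (om_pos t v) (Mx_pos v)).le (by positivity)
      _ = _ := by rw [h1]; ring
  refine (lintegral_mono h).trans ?_
  rw [geo_gauss (by norm_num) (by positivity), show π / (1 / 8) = 4 * (2 * π) by ring,
    ← ENNReal.ofReal_ofNat]
  refine ENNReal.ofReal_le_ofReal ?_
  have := geo_rpow (c := 4) (K := 8) (by norm_num) (by norm_num) (by norm_num)
  linarith

end P140S
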