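import Vale.Agent.P140S.ParF

noncomputable section
namespace P140S
open MeasureTheory Set Real Filter Vale.Agent.P140
open scoped ENNReal Topology Classical

theorem meas_ga : Measurable fun y : ℝ × ℝ => ga y.1 y.2 := by
  unfold ga
  fun_prop
theorem kato_mga (τ : ℝ) : Measurable (ga τ) := meas_ga.comp (measurable_const.prodMk measurable_id)
theorem ga_le_one {τ : ℝ} (h : 0 ≤ τ) (x : ℝ) : ga τ x ≤ 1 :=
  ENNReal.ofReal_le_one.2 (exp_le_one_iff.2 (neg_nonpos.2 (by positivity)))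
theorem lint_ga {τ : ℝ} (h : 0 < τ) : ∫⁻ x, ga τ x ≤ ENNReal.ofReal (6 / √τ) := by
  have e : ∀ x, ga τ x = ENNReal.ofReal (exp (-(τ / 8) * x ^ 2)) := fun x => by
    rw [ga]
    congr 2
    ring
  simp only [e]
  rw [← ofReal_integral_eq_lintegral_ofReal (integrable_exp_neg_mul_sq (by positivity))
    (Eventually.of_forall fun x => (exp_pos _).le), integral_gaussian]
  refine ENNReal.ofReal_le_ofReal ?_
  rw [show π / (τ / 8) = 8 * π / τ by field_simp, sqrt_div (by positivity)]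
  refine div_le_div_of_nonneg_right (sqrt_le_iff.2 ⟨by norm_num, ?_⟩) (sqrt_nonneg _)
  linarith [pi_lt_four]
theorem kato_ga {τ x s : ℝ} (h0 : 0 < τ) (h1 : τ ≤ 1) (hs : s ∈ Ico (τ * x - 1) (τ * x)) :
    ga τ x ≤ ENNReal.ofReal (8 / 7) * ga (1 / 2) s := by
  rw [ga, ga, ← ENNReal.ofReal_mul (by norm_num)]
  refine ENNReal.ofReal_le_ofReal ?_
  have h2 : exp (1 / 8) ≤ 8 / 7 :=
    (Real.exp_bound_div_one_sub_of_interval (by norm_num) (by norm_num)).trans (by norm_num)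
  refine le_trans ?_ (mul_le_mul_of_nonneg_right h2 (exp_pos _).le)
  rw [← exp_add]
  refine exp_le_exp.2 ?_
  have h3 : (τ * x) ^ 2 ≤ τ * x ^ 2 := by
    nlinarith [mul_nonneg (mul_nonneg h0.le (sub_nonneg.2 h1)) (sq_nonneg x)]
  have h4 : (τ * x - s) ^ 2 ≤ 1 := by nlinarith [hs.1, hs.2]
  nlinarith [sq_nonneg (2 * (τ * x) - s)]
theorem kato_mray {ρ : Ci → ℝ≥0∞} (hρ : Measurable ρ) (τ : ℝ) (z : Ci) :
    Measurable fun x : ℝ => ρ (z - ((τ * x : ℝ) : Ci)) :=
  hρ.comp ((meas_coe.comp (measurable_const_mul τ)).const_sub z)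
theorem Kx_per {τ : ℝ} (h0 : 0 < τ) (h1 : τ ≤ 1) {ρ : Ci → ℝ≥0∞} (hρ : Measurable ρ) (z : Ci) :
    Kx τ ρ z ≤ ENNReal.ofReal (10 / τ) * ∫⁻ y, ρ y := by
  have hm : Measurable fun q : ℝ × ℝ => if q.2 / τ < q.1 ∧ q.1 ≤ (q.2 + 1) / τ then
      ENNReal.ofReal (8 / 7) * ga (1 / 2) q.2 * ρ (z - ((τ * q.1 : ℝ) : Ci)) else 0 :=
    Measurable.ite ((measurableSet_lt (by fun_prop) measurable_fst).inter
      (measurableSet_le measurable_fst (by fun_prop)))
      ((((kato_mga _).comp measurable_snd).const_mul _).mul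
        ((kato_mray hρ τ z).comp measurable_fst)) measurable_const
  have h2 : (8 / 7 * (6 / √(1 / 2)) : ℝ) ≤ 10 := by
    have : (7 / 10 : ℝ) ≤ √(1 / 2) := le_sqrt_of_sq_le (by norm_num)
    have : 6 / √(1 / 2 : ℝ) ≤ 6 / (7 / 10) := div_le_div_of_nonneg_left (by norm_num)
      (by norm_num) this
    linarith
  calc Kx τ ρ z ≤ ∫⁻ x, ∫⁻ s, if s / τ < x ∧ x ≤ (s + 1) / τ then
        ENNReal.ofReal (8 / 7) * ga (1 / 2) s * ρ (z - ((τ * x : ℝ) : Ci)) else 0 := by
        refine lintegral_mono fun x => ?_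
        calc _ = ∫⁻ _ in Ico (τ * x - 1) (τ * x), ga τ x * ρ (z - ((τ * x : ℝ) : Ci)) := by
              simp
          _ ≤ _ := by
              rw [← lintegral_indicator measurableSet_Ico]
              refine lintegral_mono fun s => indicator_apply_le' (fun hs => ?_) fun _ => zero_le
              rw [if_pos ⟨by rw [div_lt_iff₀ h0]; linarith [hs.2],
                by rw [le_div_iff₀ h0]; linarith [hs.1]⟩]
              exact mul_le_mul_left (kato_ga h0 h1 hs) _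
    _ = ∫⁻ s, ∫⁻ x, if s / τ < x ∧ x ≤ (s + 1) / τ then
        ENNReal.ofReal (8 / 7) * ga (1 / 2) s * ρ (z - ((τ * x : ℝ) : Ci)) else 0 :=
        lintegral_lintegral_swap hm.aemeasurable
    _ ≤ ∫⁻ s, ENNReal.ofReal (8 / 7) * ga (1 / 2) s * (ENNReal.ofReal (1 / τ) * ∫⁻ y, ρ y) := by
        refine lintegral_mono fun s => ?_
        have h3 := lint_line hρ z (c := -τ) (a := s / τ) (b := (s + 1) / τ) (by linarith)
          (by rw [abs_neg, abs_of_pos h0]; field_simp; linarith)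
        rw [abs_neg, abs_of_pos h0] at h3
        refine le_trans (le_of_eq ?_) (mul_le_mul_right h3 _)
        simp only [mul_neg, AddCircle.coe_neg, ← sub_eq_add_neg, mul_comm _ τ]
        rw [← lintegral_const_mul _ (kato_mray hρ τ z), ← lintegral_indicator measurableSet_Ioc]
        simp only [indicator_apply, mem_Ioc]
    _ ≤ _ := by
        rw [lintegral_mul_const _ ((kato_mga _).const_mul _), lintegral_const_mul _ (kato_mga _),
          ← mul_assoc]
        refine mul_le_mul_left ((mul_le_mul_left (mul_le_mul_right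
          (lint_ga one_half_pos) _) _).trans ?_) _
        rw [← ENNReal.ofReal_mul (by norm_num), ← ENNReal.ofReal_mul (by positivity)]
        refine ENNReal.ofReal_le_ofReal ?_
        rw [div_eq_mul_one_div 10 τ]
        exact mul_le_mul_of_nonneg_right h2 (by positivity)
theorem Kx_mono {τ : ℝ} (h0 : 0 < τ) {ρ ρ' : Ci → ℝ≥0∞} (h : ∀ᵐ y, ρ y ≤ ρ' y) (z : Ci) :
    Kx τ ρ z ≤ Kx τ ρ' z :=
  lintegral_mono_ae ((ae_ray h z h0.ne').mono fun _ hx => mul_le_mul_right hx _)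
theorem Kx_sup {τ : ℝ} (h0 : 0 < τ) {ρ : Ci → ℝ≥0∞} {c : ℝ≥0∞} (h : ∀ᵐ y, ρ y ≤ c) (z : Ci) :
    Kx τ ρ z ≤ ENNReal.ofReal (6 / √τ) * c := by
  refine (Kx_mono h0 (ρ' := fun _ => c) h z).trans ?_
  rw [Kx, lintegral_mul_const _ (kato_mga τ)]
  exact mul_le_mul_left (lint_ga h0) _
theorem Kx_add (τ : ℝ) {ρ ρ' : Ci → ℝ≥0∞} (hρ : Measurable ρ) (z : Ci) :
    Kx τ (fun y => ρ y + ρ' y) z = Kx τ ρ z + Kx τ ρ' z := by
  simp only [Kx, mul_add]
  exact lintegral_add_left ((kato_mga τ).mul (kato_mray hρ τ z)) _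
theorem Kx_sum (τ : ℝ) (s : Finset ℕ) {ρ : ℕ → Ci → ℝ≥0∞} (hρ : ∀ k, Measurable (ρ k)) (z : Ci) :
    Kx τ (fun y => ∑ k ∈ s, ρ k y) z = ∑ k ∈ s, Kx τ (ρ k) z := by
  simp only [Kx, Finset.mul_sum]
  exact lintegral_finsetSum _ fun k _ => (kato_mga τ).mul (kato_mray (hρ k) τ z)
theorem Kx_mul (τ : ℝ) (c : ℝ≥0∞) {ρ : Ci → ℝ≥0∞} (hρ : Measurable ρ) (z : Ci) :
    Kx τ (fun y => c * ρ y) z = c * Kx τ ρ z := by
  simp only [Kx, mul_left_comm _ c]
  exact lintegral_const_mul _ ((kato_mga τ).mul (kato_mray hρ τ z))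
theorem kato_one {a m : ℝ} (ha : 0 < a) (ha1 : a ≤ 1) (hm : 0 < m) : ∃ k : ℝ → ℝ≥0∞, Measurable k ∧
    ∫⁻ τ in Ioo (0 : ℝ) 1, k τ ≤ ENNReal.ofReal (300 * (m * ell a)) ∧
    ∀ τ ∈ Ioo (0 : ℝ) 1, ∀ z,
      Kx τ (fun y => if ‖y‖ ≤ 3 * a then ENNReal.ofReal (2 * m / a) else 0) z ≤ k τ := by
  have m1 : Measurable fun τ : ℝ => ENNReal.ofReal (1 / τ) := by fun_prop
  have m2 : Measurable fun τ : ℝ => ENNReal.ofReal (1 / √τ) := by fun_prop
  have m3 := (m1.const_mul (ENNReal.ofReal (120 * m))).indicator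
    (measurableSet_Ico (a := a ^ 2) (b := 1))
  have m4 := (m2.const_mul (ENNReal.ofReal (12 * m / a))).indicator
    (measurableSet_Ioo (a := 0) (b := a ^ 2))
  refine ⟨_, m3.add m4, (setLIntegral_le_lintegral _ _).trans ?_, fun τ hτ z => ?_⟩
  · simp only [Pi.add_apply]
    rw [lintegral_add_left m3, lintegral_indicator measurableSet_Ico,
      lintegral_indicator measurableSet_Ioo, lintegral_const_mul _ m1, lintegral_const_mul _ m2]
    refine (add_le_add (mul_le_mul_right (lint_inv (by positivity) (pow_le_one₀ ha.le ha1)) _)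
      (mul_le_mul_right (lint_inv_sqrt (by positivity)) _)).trans ?_
    have h3 := ell_ge ha ha1
    have h4 : ell (a ^ 2) = 2 * ell a - 3 := by
      rw [ell, ell, log_pow]
      push_cast
      ring
    rw [← ENNReal.ofReal_mul (by positivity), ← ENNReal.ofReal_mul (by positivity),
      ← ENNReal.ofReal_add (mul_nonneg (by positivity) (by linarith)) (by positivity),
      sqrt_sq ha.le, h4, show 12 * m / a * (2 * a) = 24 * m by field_simp; ring]
    exact ENNReal.ofReal_le_ofReal (by nlinarith)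
  · rcases le_or_gt (a ^ 2) τ with h | h
    · refine le_trans ?_ le_self_add
      rw [indicator_of_mem (show τ ∈ Ico (a ^ 2) 1 from ⟨h, hτ.2⟩)]
      refine (Kx_per hτ.1 hτ.2.le (Measurable.ite (mset_ball _) measurable_const measurable_const)
        z).trans ?_
      have e : ∫⁻ y : Ci, (if ‖y‖ ≤ 3 * a then ENNReal.ofReal (2 * m / a) else 0)
          = ENNReal.ofReal (2 * m / a) * volume {y : Ci | ‖y‖ ≤ 3 * a} := by
        rw [← lintegral_indicator_const (mset_ball _)]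
        simp only [indicator_apply, mem_ofPred_eq]
      have := hτ.1
      rw [e]
      refine (mul_le_mul_right (mul_le_mul_right (vol_ball_le _) _) _).trans_eq ?_
      rw [← ENNReal.ofReal_mul (by positivity), ← ENNReal.ofReal_mul (by positivity),
        ← ENNReal.ofReal_mul (by positivity)]
      congr 1
      field_simp
      ring
    · refine le_trans ?_ le_add_self
      rw [indicator_of_mem (show τ ∈ Ioo 0 (a ^ 2) from ⟨hτ.1, h⟩)]
      refine (Kx_sup hτ.1 (c := ENNReal.ofReal (2 * m / a)) (Eventually.of_forall fun y => ?_)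
        z).trans_eq ?_
      · split_ifs
        exacts [le_rfl, zero_le]
      · rw [← ENNReal.ofReal_mul (by positivity), ← ENNReal.ofReal_mul (by positivity)]
        congr 1
        ring
theorem kato_bet (P : Par) (n : ℕ) : ∃ k : ℝ → ℝ≥0∞, Measurable k ∧
    ∫⁻ τ in Ioo (0 : ℝ) 1, k τ ≤ ENNReal.ofReal (300 * eps) ∧
    ∀ τ ∈ Ioo (0 : ℝ) 1, ∀ z, Kx τ (P.bet n) z ≤ k τ := by
  choose k hk using fun j => kato_one (P.z_pos j) (P.parf_z1 j) (P.τ_pos j)
  refine ⟨fun τ => ∑ j ∈ Finset.range (n + 1), k j τ,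
    Finset.measurable_sum _ fun j _ => (hk j).1, ?_, fun τ hτ z => ?_⟩
  · rw [lintegral_finsetSum _ fun j _ => (hk j).1]
    refine (Finset.sum_le_sum fun j _ => (hk j).2.1).trans ?_
    rw [← ENNReal.ofReal_sum_of_nonneg fun j _ => mul_nonneg (by norm_num) (P.parf_nn j),
      ← Finset.mul_sum]
    exact ENNReal.ofReal_le_ofReal (mul_le_mul_of_nonneg_left (P.sum _) (by norm_num))
  · refine (Kx_sum τ _ (fun j => Measurable.ite (mset_ball _) measurable_const measurable_const)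
      z).trans_le (Finset.sum_le_sum fun j _ => (hk j).2.2 τ hτ z)
theorem kato_ftc {g g' : ℝ → ℝ} (hd : ∀ x ∈ Ioc (0 : ℝ) 1, HasDerivAt g (g' x) x)
    (h0 : ∀ x ∈ Ioc (0 : ℝ) 1, 0 ≤ g' x) (hg : ∀ x ∈ Ioc (0 : ℝ) 1, 0 ≤ g x) :
    ∫⁻ x in Ioo (0 : ℝ) 1, ENNReal.ofReal (g' x) ≤ ENNReal.ofReal (g 1) := by
  have hu : Ioo (0 : ℝ) 1 = ⋃ n : ℕ, Ioo (1 / ((n : ℝ) + 1)) 1 := by
    ext x
    simp only [mem_Ioo, mem_iUnion]
    refine ⟨fun h => ?_, fun ⟨n, h⟩ => ⟨lt_trans (by positivity) h.1, h.2⟩⟩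
    obtain ⟨n, hn⟩ := exists_nat_one_div_lt h.1
    exact ⟨n, hn, h.2⟩
  have hm : Monotone fun n : ℕ => Ioo (1 / ((n : ℝ) + 1)) 1 := fun m n h =>
    Ioo_subset_Ioo_left (Nat.one_div_le_one_div h)
  rw [hu, setLIntegral_iUnion_of_directed _ hm.directed_le]
  refine iSup_le fun n => ?_
  have c0 : 0 < 1 / ((n : ℝ) + 1) := by positivity
  have c1 : 1 / ((n : ℝ) + 1) ≤ 1 :=
    div_le_self zero_le_one (by have := n.cast_nonneg (α := ℝ); linarith)
  rw [ell_ftc (g := g) c1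
    (fun x hx => (hd x ⟨c0.trans_le hx.1, hx.2⟩).continuousAt.continuousWithinAt)
    (fun x hx => hd x ⟨c0.trans hx.1, hx.2.le⟩) fun x hx => h0 x ⟨c0.trans hx.1, hx.2.le⟩]
  exact ENNReal.ofReal_le_ofReal (sub_le_self _ (hg _ ⟨c0, c1⟩))
theorem kato_vpi : ∃ k : ℝ → ℝ≥0∞, Measurable k ∧ ∫⁻ τ in Ioo (0 : ℝ) 1, k τ ≤ 20 ∧
    ∀ τ ∈ Ioo (0 : ℝ) 1, ∀ z, Kx τ (fun y => ENNReal.ofReal (vpi ‖y‖)) z ≤ k τ := by
  have hl : ∀ x ∈ Ioc (0 : ℝ) 1, 0 < 3 - log x / 4 := fun x hx => by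
    linarith [log_nonpos hx.1.le hx.2]
  refine ⟨fun τ => ENNReal.ofReal (10 / τ * (1 / (3 - log τ / 4) ^ 2) + 6 / √τ * (1 / (27 * √√τ))),
    by fun_prop, ?_, fun τ hτ z => ?_⟩
  · refine (kato_ftc (g := fun x => 40 * (3 - log x / 4)⁻¹ + 8 / 9 * √√x) (fun x hx => ?_)
      (fun x hx => by have := hx.1; positivity)
      fun x hx => by have := hl x hx; positivity).trans ?_
    · have h1 := sqrt_pos.2 hx.1
      have h2 := sqrt_pos.2 h1
      have h3 := hl x hx
      have h4 := hx.1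
      refine ((((((hasDerivAt_log hx.1.ne').div_const 4).const_sub 3).fun_inv h3.ne').const_mul
        40).fun_add (((hasDerivAt_sqrt hx.1.ne').sqrt h1.ne').const_mul (8 / 9))).congr_deriv ?_
      field_simp
      ring
    · rw [← ENNReal.ofReal_ofNat]
      exact ENNReal.ofReal_le_ofReal (by norm_num)
  · have h1 := sqrt_pos.2 hτ.1
    have h2 := sqrt_pos.2 h1
    have h3 : √√τ ≤ 1 := sqrt_le_one.2 (sqrt_le_one.2 hτ.2.le)
    have h4 := hτ.1
    have e : ell √√τ = 3 - log τ / 4 := by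
      rw [ell, log_sqrt h1.le, log_sqrt hτ.1.le]
      ring
    have m1 : Measurable ({y : Ci | ‖y‖ ≤ √√τ}.indicator fun y => ENNReal.ofReal (vpi ‖y‖)) :=
      (meas_vpi.comp measurable_norm).ennreal_ofReal.indicator (mset_ball _)
    refine (Kx_mono hτ.1 (ρ' := fun y => {y : Ci | ‖y‖ ≤ √√τ}.indicator
      (fun y => ENNReal.ofReal (vpi ‖y‖)) y + ENNReal.ofReal (1 / (27 * √√τ)))
      (Eventually.of_forall fun y => ?_) z).trans ?_
    · rcases le_or_gt ‖y‖ √√τ with h | h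
      · rw [indicator_of_mem (show y ∈ {y : Ci | ‖y‖ ≤ √√τ} from h)]
        exact le_self_add
      · refine le_trans (ENNReal.ofReal_le_ofReal ?_) le_add_self
        refine (vpi_le (h2.trans h) ((norm_le_half y).trans (by norm_num))).trans ?_
        exact one_div_le_one_div_of_le (by positivity) (by linarith)
    · beta_reduce
      rw [Kx_add τ m1, ENNReal.ofReal_add (by positivity) (by positivity),
        ENNReal.ofReal_mul (by positivity), ENNReal.ofReal_mul (p := 6 / √τ) (by positivity)]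
      refine add_le_add ((Kx_per hτ.1 hτ.2.le m1 z).trans (mul_le_mul_right ?_ _))
        (Kx_sup hτ.1 (Eventually.of_forall fun _ => le_rfl) z)
      rw [lintegral_indicator (mset_ball _), ← e]
      exact lint_vpi_Ci h2 h3
theorem kato_shift (k : ℝ → ℝ≥0∞) {t : ℝ} (ht : t ≤ 1) {s : ℝ} (hs : s ∈ Ioo 0 t) :
    k (t - s) = (Ioo (0 : ℝ) 1).indicator k (t - s) :=
  (indicator_of_mem (show t - s ∈ Ioo (0 : ℝ) 1 from
    ⟨sub_pos.2 hs.2, by linarith [hs.1]⟩) _).symm
theorem shift_le {k : ℝ → ℝ≥0∞} (hk : Measurable k) {t : ℝ} (ht : t ≤ 1) :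
    ∫⁻ s in Ioo 0 t, k (t - s) ≤ ∫⁻ τ in Ioo (0 : ℝ) 1, k τ := by
  have _ := hk
  rw [setLIntegral_congr_fun measurableSet_Ioo fun s hs => kato_shift k ht hs,
    ← lintegral_indicator (s := Ioo (0 : ℝ) 1) measurableSet_Ioo,
    ← lintegral_sub_left_eq_self ((Ioo (0 : ℝ) 1).indicator k) t]
  exact setLIntegral_le_lintegral _ _
theorem meas_conv {k : ℝ → ℝ → ℝ≥0∞} (hk : Measurable (Function.uncurry k)) :
    Measurable fun t : ℝ => ∫⁻ s in Ioo 0 t, k s (t - s) := by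
  have h1 : Measurable fun q : ℝ × ℝ => if 0 < q.2 ∧ q.2 < q.1 then k q.2 (q.1 - q.2) else 0 :=
    Measurable.ite ((measurableSet_lt measurable_const measurable_snd).inter
      (measurableSet_lt measurable_snd measurable_fst))
      (hk.comp (measurable_snd.prodMk (measurable_fst.sub measurable_snd))) measurable_const
  have e : (fun t : ℝ => ∫⁻ s in Ioo 0 t, k s (t - s))
      = fun t => ∫⁻ s, if 0 < s ∧ s < t then k s (t - s) else 0 := by
    funext t
    rw [← lintegral_indicator measurableSet_Ioo]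
    simp only [indicator_apply, mem_Ioo]
  rw [e]
  exact h1.lintegral_prod_right'
theorem conv_le {k : ℝ → ℝ → ℝ≥0∞} (hk : Measurable (Function.uncurry k)) :
    ∫⁻ t in Ioo (0 : ℝ) 1, ∫⁻ s in Ioo 0 t, k s (t - s)
      ≤ ∫⁻ s in Ioo (0 : ℝ) 1, ∫⁻ τ in Ioo (0 : ℝ) 1, k s τ := by
  have h1 : Measurable fun q : ℝ × ℝ => (Ioo (0 : ℝ) 1).indicator (k q.2) (q.1 - q.2) := by
    simp only [indicator_apply]
    exact Measurable.ite ((measurable_fst.sub measurable_snd) measurableSet_Ioo)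
      (hk.comp (measurable_snd.prodMk (measurable_fst.sub measurable_snd))) measurable_const
  calc _ ≤ ∫⁻ t in Ioo (0 : ℝ) 1, ∫⁻ s in Ioo (0 : ℝ) 1,
        (Ioo (0 : ℝ) 1).indicator (k s) (t - s) := by
        refine setLIntegral_mono' measurableSet_Ioo fun t ht => ?_
        rw [setLIntegral_congr_fun measurableSet_Ioo fun s hs => kato_shift (k s) ht.2.le hs]
        exact lintegral_mono_set (Ioo_subset_Ioo_right ht.2.le)
    _ ≤ ∫⁻ t, ∫⁻ s in Ioo (0 : ℝ) 1, (Ioo (0 : ℝ) 1).indicator (k s) (t - s) :=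
        setLIntegral_le_lintegral _ _
    _ = _ := by
        rw [lintegral_lintegral_swap h1.aemeasurable]
        refine lintegral_congr fun s => ?_
        rw [lintegral_sub_right_eq_self ((Ioo (0 : ℝ) 1).indicator (k s)) s,
          lintegral_indicator measurableSet_Ioo]

end P140S
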