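import Vale.Agent.P140S.Def
import Vale.Agent.P140.Marg
import Vale.Agent.P140.Arch

/-! The marginal of the collision kernel in the third coordinate. -/

noncomputable section
namespace P140S
open MeasureTheory Set Real Filter Vale.Agent.P140
open scoped ENNReal Topology Classical

theorem J_eq (v w : E) :
    J v w = Icc ((v 2 + w 2 - ‖v - w‖) / 2) ((v 2 + w 2 + ‖v - w‖) / 2) := by
  ext x
  simp only [J, mem_ofPred_eq, abs_le, mem_Icc]
  constructor <;> rintro ⟨h1, h2⟩ <;> constructor <;> linarith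

theorem measurableSet_J (v w : E) : MeasurableSet (J v w) := by
  rw [J_eq]; exact measurableSet_Icc

theorem volume_J (v w : E) : volume (J v w) = ENNReal.ofReal ‖v - w‖ := by
  rw [J_eq, Real.volume_Icc]
  congr 1
  ring

theorem marg_le (v w : E) {h : ℝ → ℝ≥0∞} (hh : Measurable h) :
    ∫⁻ ω, ENNReal.ofReal |cf v w ω| * h (vp v w ω 2) ∂sph ≤
      ENNReal.ofReal (2 * π) * ∫⁻ x in J v w, h x := by
  rw [J_eq]
  exact marg_vp_coord arch 2 v w h hh

theorem marg (v w : E) {h : ℝ → ℝ≥0∞} (hh : Measurable h) :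
    ∫⁻ ω, ENNReal.ofReal |cf v w ω| * h (vp v w ω 2) ∂sph =
      ENNReal.ofReal (2 * π) * ∫⁻ x in J v w, h x := by
  have hc : Measurable fun ω : S2 => ENNReal.ofReal |cf v w ω| := by
    have : Continuous fun ω : S2 => cf v w ω := by unfold cf; fun_prop
    exact this.abs.measurable.ennreal_ofReal
  have hp : Measurable fun ω : S2 => vp v w ω 2 := by
    have : Continuous fun ω : S2 => vp v w ω 2 := by unfold vp cf; fun_prop
    exact this.measurable
  obtain ⟨μ, hμ⟩ : ∃ μ : Measure ℝ, μ = (sph.withDensity fun ω =>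
    ENNReal.ofReal |cf v w ω|).map (fun ω : S2 => vp v w ω 2) := ⟨_, rfl⟩
  obtain ⟨ν, hν⟩ : ∃ ν : Measure ℝ,
    ν = ENNReal.ofReal (2 * π) • (volume : Measure ℝ).restrict (J v w) := ⟨_, rfl⟩
  have e1 : ∀ g : ℝ → ℝ≥0∞, Measurable g →
      ∫⁻ x, g x ∂μ = ∫⁻ ω, ENNReal.ofReal |cf v w ω| * g (vp v w ω 2) ∂sph := fun g hg => by
    rw [hμ, lintegral_map hg hp]
    exact lintegral_withDensity_eq_lintegral_mul _ hc (hg.comp hp)
  have e2 : ∀ g : ℝ → ℝ≥0∞,
      ∫⁻ x, g x ∂ν = ENNReal.ofReal (2 * π) * ∫⁻ x in J v w, g x := fun g => by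
    rw [hν, lintegral_smul_measure, smul_eq_mul]
  have hle : ∀ A, MeasurableSet A → μ A ≤ ν A := fun A hA => by
    rw [← lintegral_indicator_one hA, ← lintegral_indicator_one hA,
      e1 _ (measurable_one.indicator hA), e2]
    exact marg_le v w (measurable_one.indicator hA)
  have hu1 : μ univ = ENNReal.ofReal (2 * π * ‖v - w‖) := by
    rw [← lintegral_one, e1 _ measurable_const]
    simp only [mul_one]
    exact lint_cf arch v w
  have hu2 : ν univ = ENNReal.ofReal (2 * π * ‖v - w‖) := by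
    rw [← lintegral_one, e2, lintegral_one, Measure.restrict_apply_univ, volume_J,
      ← ENNReal.ofReal_mul (by positivity)]
  have heq : μ = ν := by
    ext A hA
    refine le_antisymm (hle A hA) ?_
    have h1 := measure_add_measure_compl (μ := μ) hA
    have h2 := measure_add_measure_compl (μ := ν) hA
    have h3 : ν Aᶜ ≠ ⊤ :=
      ne_top_of_le_ne_top (hu2 ▸ ENNReal.ofReal_ne_top) (measure_mono (subset_univ _))
    have h4 : ν A + ν Aᶜ ≤ μ A + ν Aᶜ := by
      rw [h2, hu2, ← hu1, ← h1]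
      exact add_le_add_right (hle _ hA.compl) _
    exact (ENNReal.add_le_add_iff_right h3).1 h4
  rw [← e1 h hh, ← e2, heq]

theorem J_swap (v w : E) : J w v = J v w := by
  unfold J
  rw [norm_sub_rev, add_comm]

theorem marg' (v w : E) {h : ℝ → ℝ≥0∞} (hh : Measurable h) :
    ∫⁻ ω, ENNReal.ofReal |cf v w ω| * h (wp v w ω 2) ∂sph =
      ENNReal.ofReal (2 * π) * ∫⁻ x in J v w, h x := by
  have h1 := marg w v hh
  simp only [vp_swap v w, cf_swap v w, abs_neg] at h1
  rwa [J_swap] at h1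

end P140S
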