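import Vale.Agent.P140S.Ell
import Vale.Agent.P140S.Geo

noncomputable section
namespace P140S
open MeasureTheory Set Real Filter Vale.Agent.P140
open scoped ENNReal Topology Classical

theorem Tm_pos (j : ℕ) : 0 < Tm j := by unfold Tm; positivity
theorem Tm_le (j : ℕ) : Tm j ≤ 1 / 2 :=
  pow_le_of_le_one (by norm_num) (by norm_num) (Nat.succ_ne_zero j)
theorem Tm_succ (j : ℕ) : Tm j = 2 * Tm (j + 1) := by unfold Tm; ring

theorem parf_tel {a : ℕ → ℝ} {C : ℝ} (hC : 0 ≤ C) (h0 : ∀ k, 0 ≤ a k)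
    (h : ∀ k, a k = C * (a k - a (k + 1))) {j : ℕ} {s : Finset ℕ} (hs : ∀ k ∈ s, j ≤ k) :
    ∑ k ∈ s, a k ≤ C * a j := by
  have h1 : ∀ N, ∑ k ∈ Finset.range N, a (j + k) = C * (a j - a (j + N)) := by
    intro N
    induction N with
    | zero => simp
    | succ N ih => rw [Finset.sum_range_succ, ih, ← add_assoc]; linarith [h (j + N)]
  have h2 : s ⊆ Finset.Ico j (s.sup id + 1) := fun k hk =>
    Finset.mem_Ico.2 ⟨hs k hk, Nat.lt_succ_of_le (Finset.le_sup (f := id) hk)⟩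
  refine (Finset.sum_le_sum_of_subset_of_nonneg h2 fun k _ _ => h0 k).trans ?_
  rw [Finset.sum_Ico_eq_sum_range, h1]
  exact mul_le_mul_of_nonneg_left (sub_le_self _ (h0 _)) hC

theorem parf_norm {v : E} {r : ℝ} (h : ∀ i, |v i| ≤ r) : ‖v‖ ≤ 2 * r := by
  have hr : 0 ≤ r := (abs_nonneg _).trans (h 0)
  have h1 : ∀ i, v i ^ 2 ≤ r ^ 2 := fun i => sq_le_sq' (abs_le.1 (h i)).1 (abs_le.1 (h i)).2
  refine (pow_le_pow_iff_left₀ (norm_nonneg _) (by linarith) two_ne_zero).1 ?_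
  rw [EuclideanSpace.real_norm_sq_eq, Fin.sum_univ_three]
  nlinarith [h1 0, h1 1, h1 2]

theorem parf_box {c v : E} {r : ℝ} (h : v ∈ Box c r) : ‖v - c‖ ≤ 2 * r :=
  parf_norm fun i => h i

theorem parf_ev (i : Fin 3) {a : ℝ} (ha : 0 ≤ a) : ‖ev i a‖ = a := by
  unfold ev
  rw [PiLp.norm_single, Real.norm_eq_abs, abs_of_nonneg ha]

theorem parf_rect {A : Set Ci} {B : Set E} (hA : MeasurableSet A) (hB : MeasurableSet B)
    (c : ℝ) {_ : ∀ p : Ci × E, Decidable (p.1 ∈ A ∧ p.2 ∈ B)} :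
    Measurable fun p : Ci × E => if p.1 ∈ A ∧ p.2 ∈ B then c else 0 :=
  Measurable.ite (hA.prod hB) measurable_const measurable_const

theorem parf_lint {A : Set Ci} {B : Set E} (hA : MeasurableSet A) (hB : MeasurableSet B)
    (c : ℝ) {_ : ∀ p : Ci × E, Decidable (p.1 ∈ A ∧ p.2 ∈ B)} :
    ∫⁻ p : Ci × E, ENNReal.ofReal (if p.1 ∈ A ∧ p.2 ∈ B then c else 0) =
      ENNReal.ofReal c * (volume A * volume B) := by
  have : (fun p : Ci × E => ENNReal.ofReal (if p.1 ∈ A ∧ p.2 ∈ B then c else 0)) =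
      (A ×ˢ B).indicator fun _ => ENNReal.ofReal c := by
    funext p
    by_cases h : p.1 ∈ A ∧ p.2 ∈ B
    · rw [if_pos h, indicator_of_mem (mem_prod.2 h)]
    · rw [if_neg h, indicator_of_notMem (fun h' => h (mem_prod.1 h')), ENNReal.ofReal_zero]
  rw [this, lintegral_indicator_const (hA.prod hB), Measure.volume_eq_prod, Measure.prod_prod]

theorem parf_shell (a b : ℝ) : MeasurableSet {y : Ci | a ≤ ‖y‖ ∧ ‖y‖ ≤ b} :=
  (measurableSet_le measurable_const measurable_norm).inter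
    (measurableSet_le measurable_norm measurable_const)

theorem parf_two : Measurable fun v : E => |v 2| := by fun_prop

namespace Par
variable (P : Par)
theorem τ_anti : Antitone P.τ := antitone_nat_of_succ_le fun k => by
  have := P.τ_pos k
  rw [P.τ_succ]; linarith
theorem z_anti : Antitone P.z := antitone_nat_of_succ_le fun k => by
  have := P.z_pos k
  have := P.z_succ k
  linarith
theorem V_anti : Antitone P.V := antitone_nat_of_succ_le fun k => by
  have := P.V_pos k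
  have := P.V_succ k
  linarith
theorem z_lt {j k : ℕ} (h : j < k) : P.z k ≤ P.z j / 10 := (P.z_anti h).trans (P.z_succ j)
theorem z_le_V (k : ℕ) : 400 * P.z k ≤ P.V (k + 1) :=
  (P.time k).trans (mul_le_of_le_one_right (P.V_pos _).le (pow_le_one₀ (by norm_num) (by norm_num)))
theorem z_le_V' (k : ℕ) : 3200 * P.z k ≤ P.V k := by
  have := P.z_le_V k
  have := P.V_succ k
  linarith
theorem parf_z1 (k : ℕ) : P.z k ≤ 1 := by
  have := P.z_le_V' k
  have := P.V_le k
  linarith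
theorem parf_ell (k : ℕ) : 3 ≤ ell (P.z k) := ell_ge (P.z_pos k) (P.parf_z1 k)
theorem parf_nn (k : ℕ) : 0 ≤ P.τ k * ell (P.z k) :=
  mul_nonneg (P.τ_pos k).le (by linarith [P.parf_ell k])
theorem τ_ell (k : ℕ) : P.τ k * ell (P.z k) ≤ eps :=
  (Finset.single_le_sum (f := fun k => P.τ k * ell (P.z k)) (fun i _ => P.parf_nn i)
    (Finset.self_mem_range_succ k)).trans (P.sum (k + 1))
theorem τ_le (k : ℕ) : P.τ k ≤ eps / 3 := by
  have h1 := P.τ_ell k
  have h2 := mul_le_mul_of_nonneg_left (P.parf_ell k) (P.τ_pos k).le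
  linarith
theorem z_small (k : ℕ) : P.z k ≤ 1 / 10 ^ 12 := by
  have h1 := P.z_le k
  have h2 := P.τ_le k
  have h3 := eps_pos
  have h4 : eps = 1 / 10 ^ 12 := rfl
  linarith
theorem parf_tail {j : ℕ} {s : Finset ℕ} (hs : ∀ k ∈ s, j ≤ k) : ∑ k ∈ s, P.τ k ≤ 4 * P.τ j :=
  parf_tel (by norm_num) (fun k => (P.τ_pos k).le) (fun k => by rw [P.τ_succ]; ring) hs
theorem sum_τ (s : Finset ℕ) : ∑ k ∈ s, P.τ k ≤ 4 * P.τ 0 :=
  P.parf_tail fun k _ => Nat.zero_le k
theorem sum_τ_sq (s : Finset ℕ) : ∑ k ∈ s, P.τ k ^ 2 ≤ 16 / 7 * P.τ 0 ^ 2 :=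
  parf_tel (a := fun k => P.τ k ^ 2) (by norm_num) (fun k => sq_nonneg _)
    (fun k => by rw [P.τ_succ]; ring) fun k _ => Nat.zero_le k
theorem sum_le_mu (s : Finset ℕ) {ζ : ℝ} (h0 : 0 < ζ) (h1 : ζ ≤ 1) :
    ∑ k ∈ s.filter (fun k => P.z k ≤ ζ), P.τ k ≤ eps * mu ζ := by
  rcases (s.filter (fun k => P.z k ≤ ζ)).eq_empty_or_nonempty with h | h
  · rw [h, Finset.sum_empty]
    exact (mul_pos eps_pos (mu_pos h0 h1)).le
  · have h2 := (Finset.mem_filter.1 (Finset.min'_mem _ h)).2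
    refine (P.parf_tail (j := Finset.min' _ h) fun k hk => Finset.min'_le _ k hk).trans
      ((P.tail _).trans ?_)
    exact mul_le_mul_of_nonneg_left (mu_mono (P.z_pos _) h2 h1) eps_pos.le
theorem disj {k l : ℕ} {r : ℝ} (hk : P.z k / 2 ≤ r ∧ r ≤ 3 * P.z k)
    (hl : P.z l / 2 ≤ r ∧ r ≤ 3 * P.z l) : k = l := by
  rcases lt_trichotomy k l with h | h | h
  · have := P.z_lt h
    have := P.z_pos k
    linarith [hk.1, hl.2]
  · exact h
  · have := P.z_lt h
    have := P.z_pos l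
    linarith [hl.1, hk.2]
theorem τ_tendsto : Tendsto P.τ atTop (𝓝 0) :=
  (summable_of_sum_range_le (fun k => (P.τ_pos k).le) fun _ => P.sum_τ _).tendsto_atTop_zero
theorem z_tendsto : Tendsto P.z atTop (𝓝 0) :=
  squeeze_zero (fun k => (P.z_pos k).le) P.z_le P.τ_tendsto
theorem τ_ell_tendsto : Tendsto (fun k => P.τ k * ell (P.z k)) atTop (𝓝 0) :=
  (summable_of_sum_range_le P.parf_nn P.sum).tendsto_atTop_zero
theorem bx_norm {k : ℕ} {u : E} (h : u ∈ P.bx k) :
    |u 2| ≤ P.z k ^ 2 ∧ 99 / 100 * P.V k ≤ ‖u‖ ∧ ‖u‖ ≤ 101 / 100 * P.V k := by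
  have h1 := parf_box h
  have h2 := abs_le.1 ((abs_norm_sub_norm_le u (ev 0 (P.V k))).trans h1)
  rw [parf_ev 0 (P.V_pos k).le] at h2
  have h3 : P.z k ^ 2 ≤ P.z k := pow_le_of_le_one (P.z_pos k).le (P.parf_z1 k) two_ne_zero
  have h4 := P.z_le_V' k
  have h5 := P.z_pos k
  refine ⟨?_, by linarith [h2.1], by linarith [h2.2]⟩
  have h6 := h 2
  simpa [ev] using h6
theorem bx_diam {k : ℕ} {u w : E} (hu : u ∈ P.bx k) (hw : w ∈ P.bx k) :
    ‖u - w‖ ≤ 4 * P.z k ^ 2 := by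
  have : ‖u - w‖ ≤ 2 * (2 * P.z k ^ 2) := parf_norm fun i => by
    have h1 := abs_le.1 (hu i)
    have h2 := abs_le.1 (hw i)
    rw [PiLp.sub_apply, abs_le]
    constructor <;> linarith [h1.1, h1.2, h2.1, h2.2]
  linarith
theorem mset_bx (k : ℕ) : MeasurableSet (P.bx k) := mset_Box _ _
theorem vol_bx (k : ℕ) : volume (P.bx k) = ENNReal.ofReal (8 * P.z k ^ 6) := by
  rw [bx, vol_Box _ (sq_nonneg _)]
  congr 1
  ring
theorem mset_Cls (j : ℕ) : MeasurableSet (P.Cls j) :=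
  (measurableSet_le measurable_norm measurable_const).inter
    (measurableSet_le measurable_const parf_two)
theorem mset_Obs : MeasurableSet P.Obs := measurableSet_le measurable_const parf_two
theorem seed_cls {m : ℕ} {v : E} (h : v ∈ Box (ev 2 (P.V m)) (P.V m / 2)) :
    v ∈ P.Cls m ∧ P.V m / 2 ≤ v 2 ∧ v 2 ≤ 3 * P.V m / 2 := by
  have h1 := parf_box h
  have h2 := abs_le.1 ((abs_norm_sub_norm_le v (ev 2 (P.V m))).trans h1)
  rw [parf_ev 2 (P.V_pos m).le] at h2
  have h3 : |v 2 - P.V m| ≤ P.V m / 2 := by simpa [ev] using h 2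
  have h4 := abs_le.1 h3
  have h5 := P.V_pos m
  have h6 := le_abs_self (v 2)
  exact ⟨⟨by linarith [h2.2], by linarith [h4.1]⟩, by linarith [h4.1], by linarith [h4.2]⟩
theorem meas_cb (k : ℕ) : Measurable (Function.uncurry (P.cb k)) :=
  parf_rect (parf_shell _ _) (P.mset_bx k) _
theorem meas_sd (m : ℕ) (σ : ℝ) : Measurable (Function.uncurry (P.sd m σ)) :=
  parf_rect (mset_ball _) (mset_Box _ _) _
theorem meas_g0 (n : ℕ) (σ κ : ℝ) : Measurable (Function.uncurry (P.g0 n σ κ)) := by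
  have h : Measurable fun p : Ci × E => κ * Mx p.2 := by unfold Mx; fun_prop
  exact (P.meas_sd (n + 1) σ).add h
theorem meas_f0 (n : ℕ) (σ κ : ℝ) : Measurable (Function.uncurry (P.f0 n σ κ)) :=
  (Finset.measurable_sum (f := fun k => Function.uncurry (P.cb k)) _
    fun k _ => P.meas_cb k).add (P.meas_g0 n σ κ)
theorem meas_bet (n : ℕ) : Measurable (P.bet n) :=
  Finset.measurable_sum _ fun _ _ =>
    Measurable.ite (mset_ball _) measurable_const measurable_const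
theorem cb_nonneg (k : ℕ) (y : Ci) (v : E) : 0 ≤ P.cb k y v := by
  have := P.τ_pos k
  have := P.z_pos k
  unfold cb
  split_ifs
  · positivity
  · exact le_rfl
theorem sd_nonneg (m : ℕ) {σ : ℝ} (hσ : 0 ≤ σ) (y : Ci) (v : E) : 0 ≤ P.sd m σ y v := by
  have := P.V_pos m
  have := P.z_pos m
  unfold sd
  split_ifs
  · positivity
  · exact le_rfl
theorem parf_half (k : ℕ) : 2 * P.z k ≤ 1 / 2 := by
  have := P.z_small k
  linarith
theorem lint_cb (k : ℕ) :
    ∫⁻ p : Ci × E, ENNReal.ofReal (P.cb k p.1 p.2) = ENNReal.ofReal (2 * P.τ k) := by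
  have h1 := P.τ_pos k
  have h2 := P.z_pos k
  refine (parf_lint (parf_shell (P.z k) (2 * P.z k)) (P.mset_bx k) _).trans ?_
  rw [vol_shell h2.le (P.parf_half k), P.vol_bx, ← ENNReal.ofReal_mul (by linarith),
    ← ENNReal.ofReal_mul (by positivity)]
  congr 1
  field_simp
  ring
theorem lint_cb_side (k : ℕ) {e : ℝ} (he : e = 1 ∨ e = -1) :
    ∫⁻ u, ∫⁻ ξ in Icc (P.z k) (2 * P.z k), ENNReal.ofReal (P.cb k ((e * ξ : ℝ) : Ci) u)
      = ENNReal.ofReal (P.τ k) := by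
  have h1 := P.τ_pos k
  have h2 := P.z_pos k
  have h3 : ∀ u, ∫⁻ ξ in Icc (P.z k) (2 * P.z k), ENNReal.ofReal (P.cb k ((e * ξ : ℝ) : Ci) u) =
      (P.bx k).indicator
        (fun _ => ENNReal.ofReal (P.τ k / (8 * P.z k ^ 7)) * ENNReal.ofReal (P.z k)) u := by
    intro u
    by_cases hu : u ∈ P.bx k
    · rw [indicator_of_mem hu, setLIntegral_congr_fun measurableSet_Icc
        (g := fun _ => ENNReal.ofReal (P.τ k / (8 * P.z k ^ 7))), setLIntegral_const,
        Real.volume_Icc]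
      · congr 2
        ring
      · intro ξ hξ
        have e1 : |e * ξ| = ξ := by
          have := abs_of_pos (h2.trans_le hξ.1)
          rcases he with h | h <;> simp [h, this]
        have e2 : ‖((e * ξ : ℝ) : Ci)‖ = ξ := by
          rw [norm_coe_eq (by rw [e1]; exact hξ.2.trans (P.parf_half k)), e1]
        beta_reduce
        rw [cb, e2, if_pos ⟨hξ, hu⟩]
    · rw [indicator_of_notMem hu]
      simp [cb, hu]
  rw [lintegral_congr h3, lintegral_indicator_const (P.mset_bx k), P.vol_bx,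
    ← ENNReal.ofReal_mul (by positivity), ← ENNReal.ofReal_mul (by positivity)]
  congr 1
  field_simp
theorem lint_sd (m : ℕ) (σ : ℝ) :
    ∫⁻ p : Ci × E, ENNReal.ofReal (P.sd m σ p.1 p.2) = ENNReal.ofReal σ := by
  have h1 := P.V_pos m
  have h2 := P.z_pos m
  refine (parf_lint (mset_ball (P.z m)) (mset_Box (ev 2 (P.V m)) (P.V m / 2)) _).trans ?_
  rw [vol_ball (by linarith [P.parf_half m]), vol_Box _ (by linarith),
    ← ENNReal.ofReal_mul (by linarith), ← ENNReal.ofReal_mul' (by positivity)]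
  congr 1
  field_simp
theorem bet_le (n : ℕ) (y : Ci) : P.bet n y ≤ ENNReal.ofReal (1 / P.z (n + 1)) := by
  have h1 := P.z_pos (n + 1)
  have h2 : P.bet n y ≤ ∑ k ∈ Finset.range (n + 1), ENNReal.ofReal (2 / P.z (n + 1) * P.τ k) := by
    refine Finset.sum_le_sum fun k hk => ?_
    split_ifs
    · refine ENNReal.ofReal_le_ofReal ?_
      rw [div_mul_eq_mul_div]
      exact div_le_div_of_nonneg_left (by linarith [P.τ_pos k]) h1
        (P.z_anti (Finset.mem_range.1 hk).le)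
    · exact zero_le
  refine h2.trans ?_
  rw [← ENNReal.ofReal_sum_of_nonneg fun k _ => mul_nonneg (by positivity) (P.τ_pos k).le,
    ← Finset.mul_sum, div_mul_eq_mul_div]
  refine ENNReal.ofReal_le_ofReal (div_le_div_of_nonneg_right ?_ h1.le)
  have h3 := P.sum_τ (Finset.range (n + 1))
  have h4 := P.τ_le 0
  have h5 : eps = 1 / 10 ^ 12 := rfl
  linarith
end Par

end P140S
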