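import Vale.Agent.P140S.Kato

noncomputable section
namespace P140S
open MeasureTheory Set Real Filter Vale.Agent.P140
open scoped ENNReal Topology Classical

theorem ttb_unc {α : Type*} [MeasurableSpace α] {f : Fam} (hf : Measurable (unc f)) {s : α → ℝ}
    {y : α → Ci} {u : α → E} (hs : Measurable s) (hy : Measurable y) (hu : Measurable u) :
    Measurable fun a => f (s a) (y a) (u a) := hf.comp (hs.prodMk (hy.prodMk hu))

theorem ttb_two {α β γ : Type*} [MeasurableSpace α] [MeasurableSpace β] [MeasurableSpace γ]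
    {Θ : β → γ → ℝ≥0∞} (h : Measurable (Function.uncurry Θ)) {u : α → β} {w : α → γ}
    (hu : Measurable u) (hw : Measurable w) : Measurable fun a => Θ (u a) (w a) :=
  h.comp (hu.prodMk hw)

theorem ttb_w {α : Type*} [MeasurableSpace α] {w : ℝ → Ci → ℝ → ℝ≥0∞}
    (hw : Measurable fun r : ℝ × Ci × ℝ => w r.1 r.2.1 r.2.2) {s x : α → ℝ} {y : α → Ci}
    (hs : Measurable s) (hy : Measurable y) (hx : Measurable x) :
    Measurable fun a => w (s a) (y a) (x a) := hw.comp (hs.prodMk (hy.prodMk hx))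

theorem ttb_ga {α : Type*} [MeasurableSpace α] {s x : α → ℝ} (hs : Measurable s)
    (hx : Measurable x) : Measurable fun a => ga (s a) (x a) := meas_ga.comp (hs.prodMk hx)

theorem ttb_int {α : Type*} [MeasurableSpace α] {w : ℝ → Ci → ℝ → ℝ≥0∞}
    (hw : Measurable fun r : ℝ × Ci × ℝ => w r.1 r.2.1 r.2.2) (t : ℝ) {s x : α → ℝ} {z : α → Ci}
    (hs : Measurable s) (hz : Measurable z) (hx : Measurable x) :
    Measurable fun a => ENNReal.ofReal (2 * π) * ga (t - s a) (x a) *
      w (s a) (z a - (((t - s a) * x a : ℝ) : Ci)) (x a) :=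
  ((ttb_ga (hs.const_sub t) hx).const_mul _).mul
    (ttb_w hw hs (hz.sub (meas_coe.comp ((hs.const_sub t).mul hx))) hx)

theorem meas_T0 : Measurable (Function.uncurry T0) := measurable_const

theorem meas_T1 : Measurable (Function.uncurry T1) :=   (measurable_fst.norm.add measurable_snd.norm).ennreal_ofReal

section
variable {f f' g g' : Fam} {Θ : E → E → ℝ≥0∞} {w w' : ℝ → Ci → ℝ → ℝ≥0∞}
theorem meas_W (hf : Measurable (unc f)) (hg : Measurable (unc g))
    (hΘ : Measurable (Function.uncurry Θ)) :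
    Measurable fun r : ℝ × Ci × ℝ => W f g Θ r.1 r.2.1 r.2.2 := by
  refine Measurable.lintegral_prod_right' (f := fun p : (ℝ × Ci × ℝ) × E => ∫⁻ w,
    f p.1.1 p.1.2.1 p.2 * g p.1.1 p.1.2.1 w * Θ p.2 w * (J p.2 w).indicator 1 p.1.2.2) ?_
  refine Measurable.lintegral_prod_right' (f := fun q : ((ℝ × Ci × ℝ) × E) × E =>
    f q.1.1.1 q.1.1.2.1 q.1.2 * g q.1.1.1 q.1.1.2.1 q.2 * Θ q.1.2 q.2 *
      (J q.1.2 q.2).indicator 1 q.1.1.2.2) ?_
  exact (((ttb_unc hf (by fun_prop) (by fun_prop) (by fun_prop)).mul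
    (ttb_unc hg (by fun_prop) (by fun_prop) (by fun_prop))).mul
    (ttb_two hΘ (by fun_prop) (by fun_prop))).mul (meas_J (by fun_prop) (by fun_prop) (by fun_prop))

theorem meas_Wb (n : ℕ) {f : ℕ → Fam} (hf : ∀ k, Measurable (unc (f k))) (hg : Measurable (unc g))
    (hΘ : Measurable (Function.uncurry Θ)) :
    Measurable fun r : ℝ × Ci × ℝ => Wb n f g Θ r.1 r.2.1 r.2.2 :=   Finset.measurable_sum _ fun k _ => meas_W (hf k) hg hΘ

theorem meas_Wc (n : ℕ) {f f' : ℕ → Fam} (hf : ∀ k, Measurable (unc (f k)))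
    (hf' : ∀ k, Measurable (unc (f' k))) (hΘ : Measurable (Function.uncurry Θ)) :
    Measurable fun r : ℝ × Ci × ℝ => Wc n f f' Θ r.1 r.2.1 r.2.2 :=   Finset.measurable_sum _ fun k _ => Finset.measurable_sum _ fun l _ => meas_W (hf k) (hf' l) hΘ

theorem meas_dens (hf : Measurable (unc f)) {h : E → ℝ≥0∞} (hh : Measurable h) :
    Measurable fun r : ℝ × Ci => ∫⁻ u, h u * f r.1 r.2 u :=   Measurable.lintegral_prod_right' (f := fun p : (ℝ × Ci) × E => h p.2 * f p.1.1 p.1.2 p.2)
    ((hh.comp measurable_snd).mul (ttb_unc hf (by fun_prop) (by fun_prop) (by fun_prop)))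

theorem meas_dens1 (hf : Measurable (unc f)) : Measurable fun r : ℝ × Ci => ∫⁻ u, f r.1 r.2 u :=   Measurable.lintegral_prod_right' (f := fun p : (ℝ × Ci) × E => f p.1.1 p.1.2 p.2)
    (ttb_unc hf (by fun_prop) (by fun_prop) (by fun_prop))

theorem meas_pair (hf : Measurable (unc f)) (hg : Measurable (unc g))
    (hΘ : Measurable (Function.uncurry Θ)) :
    Measurable fun r : ℝ × Ci => ∫⁻ u, ∫⁻ w, f r.1 r.2 u * g r.1 r.2 w * Θ u w := by
  refine Measurable.lintegral_prod_right' (f := fun p : (ℝ × Ci) × E => ∫⁻ w,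
    f p.1.1 p.1.2 p.2 * g p.1.1 p.1.2 w * Θ p.2 w) ?_
  refine Measurable.lintegral_prod_right' (f := fun q : ((ℝ × Ci) × E) × E =>
    f q.1.1.1 q.1.1.2 q.1.2 * g q.1.1.1 q.1.1.2 q.2 * Θ q.1.2 q.2) ?_
  exact ((ttb_unc hf (by fun_prop) (by fun_prop) (by fun_prop)).mul
    (ttb_unc hg (by fun_prop) (by fun_prop) (by fun_prop))).mul
    (ttb_two hΘ (by fun_prop) (by fun_prop))

theorem W_le_pair (s : ℝ) (y : Ci) (x : ℝ) :
    W f g Θ s y x ≤ ∫⁻ u, ∫⁻ w, f s y u * g s y w * Θ u w :=   lintegral_mono fun _ => lintegral_mono fun _ =>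
    mul_le_of_le_one_right' (indicator_apply_le' (fun _ => le_rfl) fun _ => zero_le_one)

theorem W_T0_le (hf : Measurable (unc f)) (hg : Measurable (unc g)) (s : ℝ) (y : Ci) (x : ℝ) :
    W f g T0 s y x ≤ (∫⁻ u, f s y u) * ∫⁻ w, g s y w := by
  refine (W_le_pair s y x).trans_eq ?_
  simp only [T0, mul_one]
  exact lintegral_lintegral_mul (meas_slice hf s y).aemeasurable (meas_slice hg s y).aemeasurable

theorem pair_T1 (hf : Measurable (unc f)) (hg : Measurable (unc g)) (s : ℝ) (y : Ci) :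
    ∫⁻ u, ∫⁻ w, f s y u * g s y w * T1 u w
      = (∫⁻ u, ENNReal.ofReal ‖u‖ * f s y u) * (∫⁻ w, g s y w)
        + (∫⁻ u, f s y u) * ∫⁻ w, ENNReal.ofReal ‖w‖ * g s y w := by
  have h1 := meas_slice hf s y
  have h2 := meas_slice hg s y
  have h3 : Measurable fun u : E => ENNReal.ofReal ‖u‖ := measurable_norm.ennreal_ofReal
  rw [← lintegral_lintegral_mul (h3.fun_mul h1).aemeasurable h2.aemeasurable,
    ← lintegral_lintegral_mul h1.aemeasurable (h3.fun_mul h2).aemeasurable, ← lintegral_add_left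
      (Measurable.lintegral_prod_right (f := fun u w => ENNReal.ofReal ‖u‖ * f s y u * g s y w)
        (((h3.mul h1).comp measurable_fst).mul (h2.comp measurable_snd)))]
  refine lintegral_congr fun u => ?_
  rw [← lintegral_add_left (h2.const_mul _)]
  refine lintegral_congr fun w => ?_
  rw [T1, ENNReal.ofReal_add (norm_nonneg _) (norm_nonneg _)]
  ring

theorem W_comm (hf : Measurable (unc f)) (hg : Measurable (unc g))
    (hΘ : Measurable (Function.uncurry Θ)) (hs : ∀ u w, Θ u w = Θ w u) (s : ℝ) (y : Ci) (x : ℝ) :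
    W f g Θ s y x = W g f Θ s y x := by
  rw [W, W, lintegral_lintegral_swap (Measurable.aemeasurable ?_)]
  · refine lintegral_congr fun w => lintegral_congr fun u => ?_
    rw [hs u w, J_comm w u, mul_comm (f s y u)]
  · exact ((((meas_slice hf s y).comp measurable_fst).mul
      ((meas_slice hg s y).comp measurable_snd)).mul hΘ).mul
      (meas_J measurable_fst measurable_snd measurable_const)

theorem lint_W (hf : Measurable (unc f)) (hg : Measurable (unc g))
    (hΘ : Measurable (Function.uncurry Θ)) (s : ℝ) (y : Ci) {h : ℝ → ℝ≥0∞} (hh : Measurable h) :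
    ∫⁻ x, h x * W f g Θ s y x
      = ∫⁻ u, ∫⁻ w, f s y u * g s y w * Θ u w * ∫⁻ x in J u w, h x := by
  have h1 := meas_slice hf s y
  have h2 := meas_slice hg s y
  have h3 : Measurable fun q : (ℝ × E) × E => h q.1.1 *
      (f s y q.1.2 * g s y q.2 * Θ q.1.2 q.2 * (J q.1.2 q.2).indicator 1 q.1.1) :=
    (hh.comp (by fun_prop)).mul ((((h1.comp (by fun_prop)).mul (h2.comp (by fun_prop))).mul
      (ttb_two hΘ (by fun_prop) (by fun_prop))).mul
      (meas_J (by fun_prop) (by fun_prop) (by fun_prop)))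
  have h4 : ∀ x, h x * W f g Θ s y x = ∫⁻ u, ∫⁻ w,
      h x * (f s y u * g s y w * Θ u w * (J u w).indicator 1 x) := fun x => by
    have h5 : Measurable fun q : E × E =>
        f s y q.1 * g s y q.2 * Θ q.1 q.2 * (J q.1 q.2).indicator 1 x :=
      (((h1.comp measurable_fst).mul (h2.comp measurable_snd)).mul hΘ).mul
        (meas_J measurable_fst measurable_snd measurable_const)
    rw [W, ← lintegral_const_mul _ h5.lintegral_prod_right']
    exact lintegral_congr fun u => (lintegral_const_mul _ (h5.comp measurable_prodMk_left)).symm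
  rw [lintegral_congr h4, lintegral_lintegral_swap h3.lintegral_prod_right'.aemeasurable]
  refine lintegral_congr fun u => ?_
  refine (lintegral_lintegral_swap (by
    exact (h3.comp (f := fun p : ℝ × E => ((p.1, u), p.2)) (by fun_prop)).aemeasurable)).trans
    (lintegral_congr fun w => ?_)
  rw [← lintegral_indicator (mset_J u w), ← lintegral_const_mul _ (hh.indicator (mset_J u w))]
  refine lintegral_congr fun x => ?_
  by_cases hx : x ∈ J u w <;> simp [hx, mul_comm]

theorem lint_W0 (hf : Measurable (unc f)) (hg : Measurable (unc g)) (s : ℝ) (y : Ci) :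
    ∫⁻ x, W f g T0 s y x = ∫⁻ u, ∫⁻ w, f s y u * g s y w * ENNReal.ofReal ‖u - w‖ := by
  simpa [T0, vol_J] using lint_W hf hg meas_T0 s y (h := fun _ => 1) measurable_const

theorem meas_TT (hw : Measurable fun r : ℝ × Ci × ℝ => w r.1 r.2.1 r.2.2) (a t : ℝ) :
    Measurable (TT w a t) := by
  refine Measurable.lintegral_prod_right' (f := fun p : Ci × ℝ => ∫⁻ x : ℝ,
    ENNReal.ofReal (2 * π) * ga (t - p.2) x * w p.2 (p.1 - (((t - p.2) * x : ℝ) : Ci)) x) ?_
  exact Measurable.lintegral_prod_right' (ttb_int (α := (Ci × ℝ) × ℝ) hw t measurable_fst.snd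
    measurable_fst.fst measurable_snd)

theorem TT_mono {a t : ℝ} (h : ∀ s ∈ Ioo a t, ∀ y x, w s y x ≤ w' s y x) (z : Ci) :
    TT w a t z ≤ TT w' a t z :=   setLIntegral_mono' measurableSet_Ioo fun s hs => lintegral_mono fun _ =>
    mul_le_mul_right (h s hs _ _) _

theorem TT_add (hw : Measurable fun r : ℝ × Ci × ℝ => w r.1 r.2.1 r.2.2) (a t : ℝ) (z : Ci) :
    TT (fun s y x => w s y x + w' s y x) a t z = TT w a t z + TT w' a t z := by
  rw [TT, TT, TT, ← lintegral_add_left (Measurable.lintegral_prod_right'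
    (ttb_int (α := ℝ × ℝ) hw t measurable_fst measurable_const measurable_snd))]
  refine lintegral_congr fun s => ?_
  rw [← lintegral_add_left (ttb_int hw t measurable_const measurable_const measurable_id')]
  simp only [mul_add]

theorem TT_mul (hw : Measurable fun r : ℝ × Ci × ℝ => w r.1 r.2.1 r.2.2) (c : ℝ≥0∞) (a t : ℝ)
    (z : Ci) : TT (fun s y x => c * w s y x) a t z = c * TT w a t z := by
  rw [TT, TT, ← lintegral_const_mul _ (Measurable.lintegral_prod_right'
    (ttb_int (α := ℝ × ℝ) hw t measurable_fst measurable_const measurable_snd))]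
  refine lintegral_congr fun s => ?_
  rw [← lintegral_const_mul _ (ttb_int hw t measurable_const measurable_const measurable_id')]
  simp only [mul_left_comm c]

theorem TT_le_Kx {a t : ℝ} {z : Ci} {ρ : ℝ → Ci → ℝ≥0∞}
    (h : ∀ s ∈ Ioo a t, ∀ᵐ y, ∀ x : ℝ, y = z - (((t - s) * x : ℝ) : Ci) → w s y x ≤ ρ s y) :
    TT w a t z ≤ ENNReal.ofReal (2 * π) * ∫⁻ s in Ioo a t, Kx (t - s) (ρ s) z := by
  rw [← lintegral_const_mul' _ _ ENNReal.ofReal_ne_top]
  refine setLIntegral_mono' measurableSet_Ioo fun s hs => ?_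
  rw [Kx, ← lintegral_const_mul' _ _ ENNReal.ofReal_ne_top]
  refine lintegral_mono_ae ((ae_ray (h s hs) z (sub_pos.2 hs.2).ne').mono fun x hx => ?_)
  rw [mul_assoc]
  exact mul_le_mul_right (mul_le_mul_right (hx x rfl) _) _

theorem TT_const {a t : ℝ} {c : ℝ≥0∞} (h : ∀ s y x, w s y x ≤ c) (z : Ci) :
    TT w a t z ≤ ENNReal.ofReal (80 * √(t - a)) * c := by
  rcases le_or_gt t a with hta | hta
  · simp [TT, Ioo_eq_empty_of_le hta]
  have hm : Measurable fun τ : ℝ => ENNReal.ofReal (1 / √τ) := by fun_prop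
  have h1 : ∫⁻ s in Ioo a t, ENNReal.ofReal (1 / √(t - s)) ≤ ENNReal.ofReal (2 * √(t - a)) := by
    refine le_of_eq_of_le ?_ (lint_inv_sqrt (sub_pos.2 hta).le)
    rw [← (Measure.measurePreserving_sub_left volume t).setLIntegral_comp_preimage
      measurableSet_Ioo hm, preimage_const_sub_Ioo, sub_sub_cancel, sub_zero]
  calc TT w a t z ≤ ENNReal.ofReal (2 * π) * ∫⁻ s in Ioo a t, Kx (t - s) (fun _ => c) z :=
        TT_le_Kx fun s _ => Eventually.of_forall fun y x _ => h s y x
    _ ≤ ENNReal.ofReal (2 * π) * ∫⁻ s in Ioo a t,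
          ENNReal.ofReal 6 * ENNReal.ofReal (1 / √(t - s)) * c := by
        refine mul_le_mul_right (setLIntegral_mono' measurableSet_Ioo fun s hs => ?_) _
        rw [← ENNReal.ofReal_mul (by norm_num), mul_one_div]
        exact Kx_sup (sub_pos.2 hs.2) (Eventually.of_forall fun _ => le_rfl) z
    _ ≤ ENNReal.ofReal (2 * π) * (ENNReal.ofReal 6 * ENNReal.ofReal (2 * √(t - a)) * c) := by
        rw [lintegral_mul_const _ (by fun_prop), lintegral_const_mul' _ _ ENNReal.ofReal_ne_top]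
        gcongr
    _ ≤ _ := by
        rw [← mul_assoc, ← ENNReal.ofReal_mul (by norm_num), ← ENNReal.ofReal_mul (by positivity)]
        refine mul_le_mul_left (ENNReal.ofReal_le_ofReal ?_) _
        nlinarith [pi_lt_d2, sqrt_nonneg (t - a)]

theorem lint_TT (hw : Measurable fun r : ℝ × Ci × ℝ => w r.1 r.2.1 r.2.2) (a t : ℝ) {A : Set Ci}
    (hA : MeasurableSet A) : ∫⁻ z in A, TT w a t z = ∫⁻ s in Ioo a t, ∫⁻ y, ∫⁻ x : ℝ,
      ENNReal.ofReal (2 * π) * ga (t - s) x * A.indicator 1 (y + (((t - s) * x : ℝ) : Ci))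
        * w s y x := by
  have hI : Measurable (A.indicator (1 : Ci → ℝ≥0∞)) := measurable_one.indicator hA
  have h1 : Measurable fun q : (Ci × ℝ) × ℝ => A.indicator 1 q.1.1 * (ENNReal.ofReal (2 * π) *
      ga (t - q.1.2) q.2 * w q.1.2 (q.1.1 - (((t - q.1.2) * q.2 : ℝ) : Ci)) q.2) :=
    (hI.comp measurable_fst.fst).mul
      (ttb_int hw t measurable_fst.snd measurable_fst.fst measurable_snd)
  have h2 : ∀ z, A.indicator (TT w a t) z = ∫⁻ s in Ioo a t, ∫⁻ x : ℝ, A.indicator 1 z *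
      (ENNReal.ofReal (2 * π) * ga (t - s) x * w s (z - (((t - s) * x : ℝ) : Ci)) x) := fun z => by
    by_cases hz : z ∈ A <;> simp [hz, TT]
  rw [← lintegral_indicator hA, lintegral_congr h2,
    lintegral_lintegral_swap h1.lintegral_prod_right'.aemeasurable]
  refine lintegral_congr fun s => ?_
  refine (lintegral_lintegral_swap (by
    exact (h1.comp (f := fun p : Ci × ℝ => ((p.1, s), p.2)) (by fun_prop)).aemeasurable)).trans
    ((lintegral_congr fun x => ?_).trans
      (lintegral_lintegral_swap (Measurable.aemeasurable ?_)).symm)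
  · rw [← lintegral_add_right_eq_self _ (((t - s) * x : ℝ) : Ci)]
    refine lintegral_congr fun y => ?_
    rw [add_sub_cancel_right]
    ring
  · exact (((ttb_ga measurable_const measurable_snd).const_mul _).mul (hI.comp (measurable_fst.add
      (meas_coe.comp (measurable_snd.const_mul _))))).mul
      (ttb_w hw measurable_const measurable_fst measurable_snd)

theorem lint_TT_le (hw : Measurable fun r : ℝ × Ci × ℝ => w r.1 r.2.1 r.2.2) {t : ℝ} (ht : t ≤ 1) :
    ∫⁻ z, TT w 0 t z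
      ≤ ENNReal.ofReal (2 * π) * ∫⁻ s in Ioo (0 : ℝ) 1, ∫⁻ y, ∫⁻ x : ℝ, w s y x := by
  rw [← setLIntegral_univ, lint_TT hw 0 t MeasurableSet.univ,
    ← lintegral_const_mul' _ _ ENNReal.ofReal_ne_top]
  refine le_trans (setLIntegral_mono' measurableSet_Ioo fun s hs => ?_)
    (lintegral_mono_set (Ioo_subset_Ioo_right ht))
  rw [← lintegral_const_mul' _ _ ENNReal.ofReal_ne_top]
  refine lintegral_mono fun y => ?_
  rw [← lintegral_const_mul' _ _ ENNReal.ofReal_ne_top]
  refine lintegral_mono fun x => mul_le_mul_left ?_ _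
  rw [indicator_univ, Pi.one_apply, mul_one]
  exact mul_le_of_le_one_right' (ga_le_one (sub_pos.2 hs.2).le x)

end
theorem ttb_cold {P : Par} {k : ℕ} {f : Fam} (hf : Cold P k f) (s : ℝ) (y : Ci) :
    ∫⁻ u, f s y u ≤ if ‖y‖ ≤ 3 * P.z k then ENNReal.ofReal (2 * P.τ k / P.z k) else 0 := by
  split_ifs with h
  · exact hf.int s y
  · have h0 : ∀ u, f s y u = 0 := fun u => by_contra fun hu => h (hf.supp s y u hu).1.2
    simp [h0]

theorem cold_le_bet {P : Par} {f : ℕ → Fam} (hf : ∀ k, Cold P k (f k)) (n : ℕ) (s : ℝ) (y : Ci) :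
    ∑ k ∈ Finset.range (n + 1), ∫⁻ u, f k s y u ≤ P.bet n y :=   Finset.sum_le_sum fun k _ => ttb_cold (hf k) s y

theorem cold_mass {P : Par} {k : ℕ} {f : Fam} (hf : Cold P k f) (s : ℝ) :
    ∫⁻ y, ∫⁻ u, f s y u ≤ ENNReal.ofReal (12 * P.τ k) := by
  refine (lintegral_mono (ttb_cold hf s)).trans ?_
  have hz := P.z_pos k
  have hτ := P.τ_pos k
  have h := lintegral_indicator_const (μ := volume) (mset_ball (3 * P.z k))
    (ENNReal.ofReal (2 * P.τ k / P.z k))
  simp only [indicator, mem_setOf_eq] at h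
  rw [h]
  refine (mul_le_mul_right (vol_ball_le _) _).trans_eq ?_
  rw [← ENNReal.ofReal_mul (by positivity)]
  exact congrArg _ (by field_simp; norm_num)

end P140S
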